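import Crest.Agent.R330.IBC

/-! # Row 330, BI/A: fibre averages -/

set_option autoImplicit false
set_option linter.unusedSectionVars false

noncomputable section

open MeasureTheory Filter Topology
open scoped InnerProductSpace ContDiff Matrix
open Crest.MathPhysics.MatrixQM (GammaNine)

namespace Crest.Agent.R330

variable {E Z L H F : Type}
  [NormedAddCommGroup E] [InnerProductSpace ℝ E] [FiniteDimensional ℝ E]
  [NormedAddCommGroup Z] [InnerProductSpace ℝ Z] [FiniteDimensional ℝ Z]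
  [NormedAddCommGroup L] [InnerProductSpace ℝ L] [FiniteDimensional ℝ L]
  [NormedAddCommGroup H] [InnerProductSpace ℝ H] [FiniteDimensional ℝ H]
  [NormedAddCommGroup F] [InnerProductSpace ℂ F] [FiniteDimensional ℂ F]
  [MeasurableSpace E] [BorelSpace E] [MeasurableSpace Z] [BorelSpace Z]
  [MeasurableSpace L] [BorelSpace L] [MeasurableSpace H] [BorelSpace H]
  {P : Type} [Fintype P] {𝔤 : Lie E} (D : Levi 𝔤 Z L H P) (C : Cl (Th E) F) (σ : Spn)

namespace Levi

/-- the fibre weight `wt e^{-h}` -/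
def bw (z : X Z) (y : X H) : ℂ := ((D.wt z y * Real.exp (-D.hq z y) : ℝ) : ℂ)

/-- the fibre average -/
def bT (z : X Z) (r : X H → F) : F := (((D.nu z)⁻¹ : ℝ) : ℂ) • ∫ y, D.bw z y • r y

/-- weighted Cauchy-Schwarz -/
theorem bT_sq_le {z : X Z} (hz : z ∈ D.reg) {r : X H → F} {φ G : X H → ℝ} {A : ℝ} (hA : 0 < A)
    (hφ : Integrable fun y => D.wt z y * Real.exp (-2 * D.hq z y) * φ y)
    (hφA : ∫ y, D.wt z y * Real.exp (-2 * D.hq z y) * φ y ≤ A * D.nu z ^ 2)
    (hG : Integrable fun y => D.wt z y * G y) (φ0 : ∀ y, 0 ≤ φ y) (G0 : ∀ y, 0 ≤ G y)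
    (h : ∀ y, D.wt z y ≠ 0 → ‖r y‖ ^ 2 ≤ φ y * G y) :
    ‖D.bT z r‖ ^ 2 ≤ A * ∫ y, D.wt z y * G y := by
  have hν := D.nu_pos hz
  have I0 : 0 ≤ ∫ y, D.wt z y * G y := integral_nonneg fun y => mul_nonneg (D.wt_nonneg z y) (G0 y)
  have key : ∀ t : ℝ, 0 < t → ‖∫ y, D.bw z y • r y‖ ≤
      t / 2 * (A * D.nu z ^ 2) + 1 / (2 * t) * ∫ y, D.wt z y * G y := fun t ht => by
    refine (norm_integral_le_of_norm_le ((hφ.const_mul (t / 2)).add (hG.const_mul (1 / (2 * t))))
      (Eventually.of_forall fun y => ?_)).trans ?_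
    · have w0 := D.wt_nonneg z y
      have e0 := Real.exp_pos (-D.hq z y)
      rw [norm_smul, bw, Complex.norm_real, Real.norm_of_nonneg (by positivity), Pi.add_apply,
        show -2 * D.hq z y = -D.hq z y + -D.hq z y by ring, Real.exp_add]
      rcases w0.eq_or_lt with h0 | h0
      · simp [← h0]
      have h1 := h y h0.ne'
      have h2 := φ0 y
      have h3 := G0 y
      generalize Real.exp (-D.hq z y) = e at *
      have : e * ‖r y‖ ≤ t / 2 * (e * e * φ y) + 1 / (2 * t) * G y := by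
        refine abs_le_of_sq_le_sq' ?_ (by positivity) |>.2
        have h4 : t / 2 * (e * e * φ y) * (1 / (2 * t) * G y) * 4 = e ^ 2 * (φ y * G y) := by
          field_simp; ring
        nlinarith [sq_nonneg (t / 2 * (e * e * φ y) - 1 / (2 * t) * G y),
          mul_le_mul_of_nonneg_left h1 (sq_nonneg e)]
      nlinarith [mul_le_mul_of_nonneg_left this h0.le]
    · simp only [Pi.add_apply]
      rw [integral_add (hφ.const_mul _) (hG.const_mul _), integral_const_mul, integral_const_mul]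
      gcongr
  rw [bT, norm_smul, Complex.norm_real, Real.norm_of_nonneg (by positivity), mul_pow, inv_pow,
    inv_mul_le_iff₀ (by positivity)]
  rcases (norm_nonneg (∫ y, D.bw z y • r y)).eq_or_lt with h0 | h0
  · rw [← h0]; simp only [ne_eq, OfNat.ofNat_ne_zero, not_false_eq_true, zero_pow]; positivity
  have h1 := key (‖∫ y, D.bw z y • r y‖ / (A * D.nu z ^ 2)) (by positivity)
  generalize ‖∫ y, D.bw z y • r y‖ = s at *
  generalize ∫ y, D.wt z y * G y = I at *
  have h2 := mul_le_mul_of_nonneg_left h1 h0.le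
  have h3 : s * (s / (A * D.nu z ^ 2) / 2 * (A * D.nu z ^ 2) + 1 / (2 * (s / (A * D.nu z ^ 2))) * I) =
      s ^ 2 / 2 + D.nu z ^ 2 * (A * I) / 2 := by field_simp
  nlinarith

theorem bi_integral_le_PI {g : X Z × X L → ℝ} {G₁ G₂ : X E → ℝ} (a b : ℝ) (g0 : ∀ q, 0 ≤ g q)
    (h₁ : Integrable fun x => D.wtX x * G₁ x) (h₂ : Integrable fun x => D.wtX x * G₂ x)
    (h : ∀ z l, (Integrable fun y => D.wt z y * G₁ (D.asm z l y)) →
      (Integrable fun y => D.wt z y * G₂ (D.asm z l y)) →
      g (z, l) ≤ a * (∫ y, D.wt z y * G₁ (D.asm z l y)) + b * ∫ y, D.wt z y * G₂ (D.asm z l y)) :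
    ∫ q, g q ≤ a * D.PI G₁ + b * D.PI G₂ := by
  have k₁ := D.measurePreserving_asm.integrable_comp_of_integrable h₁
  have k₂ := D.measurePreserving_asm.integrable_comp_of_integrable h₂
  simp only [Function.comp_def, wtX, zc_asm, yc_asm] at k₁ k₂
  rw [PI, PI, D.integral_eq_fibre h₁, D.integral_eq_fibre h₂, ← integral_const_mul,
    ← integral_const_mul, ← integral_add]
  · simp only [wtX, zc_asm, yc_asm]
    refine integral_mono_of_nonneg (Eventually.of_forall g0)
      ((k₁.integral_prod_left.const_mul a).add (k₂.integral_prod_left.const_mul b)) ?_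
    filter_upwards [k₁.prod_right_ae, k₂.prod_right_ae] with q h1 h2 using h q.1 q.2 h1 h2
  · simpa only [wtX, zc_asm, yc_asm] using k₁.integral_prod_left.const_mul a
  · simpa only [wtX, zc_asm, yc_asm] using k₂.integral_prod_left.const_mul b

theorem bi_reg_of_le {κ t : ℝ} {z : X Z} (ht : 0 < t) (h : ∀ p, t ≤ κ * D.M p z) : z ∈ D.reg :=
  fun p => (Real.sqrt_nonneg _).lt_of_ne fun h0 => by
    have := h p
    rw [M, ← h0, mul_zero] at this
    exact absurd this ht.not_ge

theorem bi_Phi_lt {z : X Z} {y : X H} (h : D.wt z y ≠ 0) : ‖D.Phi z y‖ < 1 := by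
  have := not_le.1 fun h1 => h (D.wt_eq_zero h1)
  nlinarith [norm_nonneg (D.Phi z y)]

variable {D C σ} in
theorem Loc.bi_integrable {κ θ R : ℝ} {u : X E → F} (hu : D.Loc C σ.G ∅ κ θ R u) (hθ : θ ≤ 1 / 2)
    (hR : 0 < R) {g : X E → ℝ} (hg : ContinuousOn g {x | D.zc x ∈ D.reg ∧ D.zc x ≠ 0})
    (h0 : ∀ x, x ∉ tsupport u → g x = 0) : Integrable fun x => D.wtX x * g x := by
  have hK : IsCompact (tsupport u ∩ {x | ‖D.Phi (D.zc x) (D.yc x)‖ ^ 2 ≤ 1 / 2}) :=
    hu.1.2.isCompact.inter_right (isClosed_le (D.contDiff_PhiX.continuous.norm.pow 2) continuous_const)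
  refine (integrableOn_iff_integrable_of_support_subset fun x hx => ?_).1
    ((D.continuous_wtX.continuousOn.mul (hg.mono fun x hx => ?_)).integrableOn_compact hK)
  · refine ⟨by_contra fun h => hx (by simp [h0 x h]), Set.mem_ofPred_eq ▸ le_of_not_gt fun h => hx ?_⟩
    simp [wtX, D.wt_eq_zero h.le]
  · have h1 : ‖D.Phi (D.zc x) (D.yc x)‖ ^ 2 ≤ 1 / 2 := hx.2
    obtain ⟨h2, h3⟩ := (hu.2 x (by nlinarith [norm_nonneg (D.Phi (D.zc x) (D.yc x))])).1 hx.1
    refine ⟨D.bi_reg_of_le (hR.trans_le h3) h2.1, norm_pos_iff.1 ?_⟩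
    nlinarith [D.tube_norm_zc h2]

/-- `r` is integrable against the fibre weight, with average `v` -/
def BiAv (z : X Z) (r : X H → F) (v : F) : Prop :=
  Integrable (fun y => D.bw z y • r y) ∧ D.bT z r = v

section
variable {D} {z : X Z} {r r' : X H → F} {v v' : F}

theorem BiAv.add (h : D.BiAv z r v) (h' : D.BiAv z r' v') : D.BiAv z (fun y => r y + r' y) (v + v') := by
  refine ⟨by simp only [smul_add]; exact h.1.add h'.1, ?_⟩
  rw [← h.2, ← h'.2, bT, bT, bT, ← smul_add, ← integral_add h.1 h'.1]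
  simp only [smul_add]

theorem BiAv.clm (h : D.BiAv z r v) (T : F →L[ℂ] F) : D.BiAv z (fun y => T (r y)) (T v) := by
  refine ⟨by simpa only [map_smul] using T.integrable_comp h.1, ?_⟩
  rw [← h.2, bT, bT, map_smul, ← T.integral_comp_comm h.1]
  simp only [map_smul]

theorem BiAv.smul (h : D.BiAv z r v) (c : ℂ) : D.BiAv z (fun y => c • r y) (c • v) :=
  h.clm (c • ContinuousLinearMap.id ℂ F)

theorem BiAv.sub (h : D.BiAv z r v) (h' : D.BiAv z r' v') : D.BiAv z (fun y => r y - r' y) (v - v') := by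
  simpa [sub_eq_add_neg] using h.add (h'.smul (-1))

theorem BiAv.sum {ι : Type} (s : Finset ι) {r : ι → X H → F} {v : ι → F}
    (h : ∀ i, D.BiAv z (r i) (v i)) : D.BiAv z (fun y => ∑ i ∈ s, r i y) (∑ i ∈ s, v i) := by
  classical
  induction s using Finset.induction_on with
  | empty => simp [BiAv, bT]
  | insert a s ha ih => simpa only [Finset.sum_insert ha] using (h a).add ih

theorem BiAv.congr (h : D.BiAv z r v) (h1 : ∀ y, r y = r' y) (h2 : v = v') : D.BiAv z r' v' := by
  rwa [← funext h1, ← h2]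

end

theorem bi_cont_fib {W : Type} [TopologicalSpace W] {g : X Z × X H → W}
    (hg : ContinuousOn g (D.reg ×ˢ Set.univ)) {z : X Z} (hz : z ∈ D.reg) :
    Continuous fun y => g (z, y) :=
  hg.comp_continuous (by fun_prop) fun _ => ⟨hz, trivial⟩

theorem bi_cont_asm (z : X Z) (l : X L) : ContDiff ℝ ∞ (D.asm z l) :=
  contDiff_const.add (liftI 9 D.iH).toContinuousLinearMap.contDiff

theorem cont_bw {z : X Z} (hz : z ∈ D.reg) : Continuous (D.bw z) :=
  Complex.continuous_ofReal.comp ((D.bi_cont_fib D.contDiffOn_wt.continuousOn hz).mul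
    (D.bi_cont_fib D.contDiffOn_hq.continuousOn hz).neg.rexp)

theorem bi_compact_fib {W : Type} [Zero W] {u : X E → F} (hu : HasCompactSupport u) (z : X Z) (l : X L)
    {r : X H → W} (h0 : ∀ y, D.asm z l y ∉ tsupport u → r y = 0) : HasCompactSupport r := by
  obtain ⟨b, hb⟩ := hu.isCompact.isBounded.exists_norm_le
  refine HasCompactSupport.intro (isCompact_closedBall 0 b) fun y hy => h0 y fun h => hy ?_
  have := D.norm_yc_le (D.asm z l y)
  rw [yc_asm] at this
  exact mem_closedBall_zero_iff.2 (this.trans (hb _ h))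

theorem integrable_bw {u : X E → F} (hu : HasCompactSupport u) {z : X Z} (hz : z ∈ D.reg) (l : X L)
    {r : X H → F} (hr : Continuous r) (h0 : ∀ y, D.asm z l y ∉ tsupport u → r y = 0) :
    Integrable fun y => D.bw z y • r y :=
  ((D.cont_bw hz).smul hr).integrable_of_hasCompactSupport
    (D.bi_compact_fib hu z l fun y hy => by simp [h0 y hy])

end Levi

end Crest.Agent.R330

end
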