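import Crest.Agent.R330.BI.A

/-! # Row 330, BI/B: the exact fibre identities -/

set_option autoImplicit false
set_option linter.unusedSectionVars false

noncomputable section

open MeasureTheory Filter Topology
open scoped InnerProductSpace ContDiff Matrix
open Crest.MathPhysics.MatrixQM (GammaNine)

namespace Crest.Agent.R330

variable {E Z L H F : Type}
  [NormedAddCommGroup E] [InnerProductSpace ℝ E] [FiniteDimensional ℝ E]
  [NormedAddCommGroup Z] [InnerProductSpace ℝ Z] [FiniteDimensional ℝ Z]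
  [NormedAddCommGroup L] [InnerProductSpace ℝ L] [FiniteDimensional ℝ L]
  [NormedAddCommGroup H] [InnerProductSpace ℝ H] [FiniteDimensional ℝ H]
  [NormedAddCommGroup F] [InnerProductSpace ℂ F] [FiniteDimensional ℂ F]
  [MeasurableSpace E] [BorelSpace E] [MeasurableSpace Z] [BorelSpace Z]
  [MeasurableSpace L] [BorelSpace L] [MeasurableSpace H] [BorelSpace H]
  {P : Type} [Fintype P] {𝔤 : Lie E} (D : Levi 𝔤 Z L H P) (C : Cl (Th E) F) (σ : Spn)

namespace Levi

local notation "eb[" V "]" => stdOrthonormalBasis ℝ V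

/-- the scalar term in the derivative of the effective wave function -/
def ba (z : X Z) (y : X H) (v : X Z) : ℝ :=
  (∑ p, 5 / 2 * D.m p * fderiv ℝ (D.M p) z v / D.M p z) -
    fderiv ℝ (fun q : X Z × X H => D.hq q.1 q.2) (z, y) (v, -D.lam z (D.Phi v y))

/-- the integrand of the light supercharge -/
def rQ (ε : ℝ) (u : X E → F) (z : X Z) (l : X L) (y : X H) : F :=
  ((∑ i, (-Complex.I) • (D.CZ C).θ (cmap σ.G σ.s (eb[X Z] i))
      (fderiv ℝ u (D.asm z l y) (D.kap (D.asm z l y) (liftI 9 D.iZ (eb[X Z] i))) +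
        (D.ba z y (eb[X Z] i) : ℂ) • u (D.asm z l y) +
        fderiv ℝ (D.Pi C σ.G) z (eb[X Z] i) (u (D.asm z l y)))) +
    (D.CZ C).θ (ε • cmap σ.G σ.s (mat V0 z)) (u (D.asm z l y))) +
  ((∑ i, (-Complex.I) • (D.CL C).θ (cmap σ.G σ.s (eb[X L] i))
      (fderiv ℝ u (D.asm z l y) (liftI 9 D.iL (eb[X L] i)))) +
    (D.CL C).θ (wd D.𝔩 σ ε (fun _ => 0) l) (u (D.asm z l y)))

/-- the leading heavy supercharge -/
def rA (u : X E → F) (z : X Z) (l : X L) (y : X H) : F :=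
  (∑ i, (-Complex.I) • (D.CH C).θ (cmap σ.G σ.s (eb[X H] i))
      (fderiv ℝ u (D.asm z l y) (liftI 9 D.iH (D.perp z (eb[X H] i))))) +
    (D.CH C).θ (D.J σ.G z (lift 16 (D.Mop z) (cmap σ.G σ.s (D.perp z y)))) (u (D.asm z l y))

def bV (z : X Z) (y : X H) : X Z :=
  ∑ p, (5 / 2 * D.m p / D.M p z - 1 / 2 * ‖lift 9 (D.pr p) (D.perp z y)‖ ^ 2) • gradient (D.M p) z

/-- gauge generator of a heavy element -/
def biS (ξ : H) : F →L[ℂ] F := C.S (lift 16 (𝔤.br (D.iH ξ)))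

/-- the zero order operator of size `1/ρ` -/
def bN (z : X Z) (y : X H) (a : F) : F :=
  (∑ i, (-Complex.I) • (D.CH C).θ (cmap σ.G σ.s (eb[X H] i))
      (D.biS C (D.Minv z (D.Phi z (eb[X H] i))) a)) +
    C.θ (wpot 𝔤 σ.G σ.s (liftI 9 D.iH (D.perp z y))) a +
    Complex.I • (D.CZ C).θ (cmap σ.G σ.s (D.bV z y)) a +
    ∑ i, Complex.I • (D.CZ C).θ (cmap σ.G σ.s (eb[X Z] i)) (fderiv ℝ (D.Pi C σ.G) z (eb[X Z] i) a)

theorem bi_Pi_Pi {z : X Z} (hz : z ∈ D.reg) (a : F) : D.Pi C σ.G z (D.Pi C σ.G z a) = D.Pi C σ.G z a :=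
  DFunLike.congr_fun ((D.CH C).vac_idem (D.isCx_J σ.G hz)) a

theorem bi_Pi_θZ (z : X Z) (v : Th Z) (a : F) :
    D.Pi C σ.G z ((D.CZ C).θ v a) = (D.CZ C).θ v (D.Pi C σ.G z a) :=
  DFunLike.congr_fun (D.Pi_comm_Z C σ.G z v) a

theorem bi_Pi_θL (z : X Z) (v : Th L) (a : F) :
    D.Pi C σ.G z ((D.CL C).θ v a) = (D.CL C).θ v (D.Pi C σ.G z a) :=
  DFunLike.congr_fun (D.Pi_comm_L C σ.G z v) a

theorem bi_Phi_zero (y : X H) : D.Phi 0 y = 0 := by simp [Phi, adZ]
theorem bi_Phi_zero' (z : X Z) : D.Phi z 0 = 0 := by simp [Phi]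
theorem bi_lam_zero (z : X Z) : D.lam z 0 = 0 := by ext; simp [lam]
theorem bi_iZ_eq (v : X Z) : liftI 9 D.iZ v = D.asm v 0 0 := by simp [asm]
theorem bi_iL_eq (v : X L) : liftI 9 D.iL v = D.asm 0 v 0 := by simp [asm]
theorem bi_iH_eq (v : X H) : liftI 9 D.iH v = D.asm 0 0 v := by simp [asm]

theorem bi_cont_lam {z : X Z} (hz : z ∈ D.reg) : Continuous (D.lam z) :=
  D.contDiffOn_lam.continuousOn.comp_continuous (f := fun t => (z, t)) (by fun_prop)
    fun _ => ⟨hz, trivial⟩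

theorem bi_cont_Phi (z : X Z) : Continuous (D.Phi z) :=
  D.contDiff_Phi.continuous.comp (f := fun t => (z, t)) (by fun_prop)

theorem cont_ba {z : X Z} (hz : z ∈ D.reg) (v : X Z) : Continuous fun y => D.ba z y v :=
  continuous_const.sub ((D.bi_cont_fib (D.contDiffOn_hq.continuousOn_fderiv_of_isOpen
    (D.isOpen_reg.prod isOpen_univ) (by simp)) hz).clm_apply
    (continuous_const.prodMk ((D.bi_cont_lam hz).comp (D.bi_cont_Phi v)).neg))

theorem bi_cont_kap {z : X Z} (hz : z ∈ D.reg) (l : X L) (v : X E) :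
    Continuous fun y => D.kap (D.asm z l y) v := by
  simp only [kap, dPhi, zc_asm, yc_asm]
  exact continuous_const.sub ((liftI 9 D.iH).continuous.comp
    ((D.bi_cont_lam hz).comp (continuous_const.add (D.bi_cont_Phi _))))

theorem av_rQ {κ θ R : ℝ} (hκ : 1 ≤ κ) (hθ : 0 < θ) (hθ' : θ ≤ 1 / 2) (hR : 0 < R) {u : X E → F}
    (hu : D.Loc C σ.G ∅ κ θ R u) {z : X Z} (hz : z ∈ D.reg) (l : X L) (ε : ℝ) :
    D.BiAv z (fun y => D.Pi C σ.G z (D.rQ C σ ε u z l y)) (D.Qlight C σ ε (D.red C σ.G u) (z, l)) := by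
  have c0 : Continuous fun y => u (D.asm z l y) := hu.1.1.continuous.comp (D.bi_cont_asm z l).continuous
  have c1 : Continuous fun y => fderiv ℝ u (D.asm z l y) :=
    (hu.1.1.continuous_fderiv (by simp)).comp (D.bi_cont_asm z l).continuous
  have h0 : D.BiAv z (fun y => D.Pi C σ.G z (u (D.asm z l y))) (D.red C σ.G u (z, l)) :=
    ⟨D.integrable_bw hu.1.2 hz l ((D.Pi C σ.G z).continuous.comp c0) fun y hy => by
      simp [image_eq_zero_of_notMem_tsupport hy], rfl⟩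
  have h1 : ∀ v l', D.BiAv z (fun y =>
      D.Pi C σ.G z (fderiv ℝ u (D.asm z l y) (D.kap (D.asm z l y) (D.asm v l' 0))) +
        (D.ba z y v : ℂ) • D.Pi C σ.G z (u (D.asm z l y)) +
        fderiv ℝ (D.Pi C σ.G) z v (u (D.asm z l y))) (fderiv ℝ (D.red C σ.G u) (z, l) (v, l')) :=
    fun v l' => ⟨D.integrable_bw hu.1.2 hz l ((((D.Pi C σ.G z).continuous.comp
      (c1.clm_apply (D.bi_cont_kap hz l _))).add ((Complex.continuous_ofReal.comp (D.cont_ba hz v)).smul
      ((D.Pi C σ.G z).continuous.comp c0))).add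
      ((fderiv ℝ (D.Pi C σ.G) z v).continuous.comp c0)) fun y hy => by
        simp [image_eq_zero_of_notMem_tsupport hy, fderiv_of_notMem_tsupport ℝ hy],
      (D.fderiv_red C σ hκ hθ hθ' hR hu hz l v l').symm⟩
  have hf : DifferentiableAt ℝ (D.red C σ.G u) (z, l) :=
    (D.eff_red C σ (fun _ h => h.elim) hκ hθ hθ' hR hu).1.1.differentiable (by simp) _
  have e1 : ∀ v, fderiv ℝ (fun z' => D.red C σ.G u (z', l)) z v =
      fderiv ℝ (D.red C σ.G u) (z, l) (v, 0) := fun v =>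
    DFunLike.congr_fun (HasFDerivAt.comp z (f := fun z' => (z', l)) hf.hasFDerivAt
      (hasFDerivAt_prodMk_left z l)).fderiv v
  have e2 : ∀ v, fderiv ℝ (fun l' => D.red C σ.G u (z, l')) l v =
      fderiv ℝ (D.red C σ.G u) (z, l) (0, v) := fun v =>
    DFunLike.congr_fun (hf.hasFDerivAt.comp l (hasFDerivAt_prodMk_right z l)).fderiv v
  refine ((((BiAv.sum Finset.univ fun i => ((h1 (eb[X Z] i) 0).clm
      ((D.CZ C).θ (cmap σ.G σ.s (eb[X Z] i)))).smul (-Complex.I)).add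
    (h0.clm ((D.CZ C).θ (ε • cmap σ.G σ.s (mat V0 z))))).add
    ((BiAv.sum Finset.univ fun i => ((h1 0 (eb[X L] i)).clm
      ((D.CL C).θ (cmap σ.G σ.s (eb[X L] i)))).smul (-Complex.I)).add
    (h0.clm ((D.CL C).θ (wd D.𝔩 σ ε (fun _ => 0) l))))).clm (D.Pi C σ.G z)).congr
    (fun y => ?_) ?_
  · have : D.ba z y 0 = 0 := by simp [ba, bi_Phi_zero, bi_lam_zero, Prod.mk_zero_zero]
    rw [rQ]
    generalize ε • cmap σ.G σ.s (mat V0 z) = w
    simp only [map_add, map_sum, map_smul, bi_Pi_θZ, bi_Pi_θL, D.bi_Pi_Pi C σ hz, ← bi_iZ_eq, ← bi_iL_eq,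
      kap_light, this, map_zero, Complex.ofReal_zero, zero_smul, add_zero, zero_apply]
  · simp only [Qlight, Qe, Qd, dirac, e1, e2]

theorem bi_sum_θ_inner {V Θ : Type} [NormedAddCommGroup V] [InnerProductSpace ℝ V]
    [FiniteDimensional ℝ V] [NormedAddCommGroup Θ] [InnerProductSpace ℝ Θ] [FiniteDimensional ℝ Θ]
    (C : Cl Θ F) (c : V →ₗ[ℝ] Θ) (w : V) (a : F) :
    ∑ i, ((⟪w, eb[V] i⟫_ℝ : ℝ) : ℂ) • C.θ (c (eb[V] i)) a = C.θ (c w) a := by
  conv_rhs => rw [← (eb[V]).sum_repr' w]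
  simp only [map_sum, map_smul, sum_apply, smul_apply,
    real_inner_comm w, Complex.coe_smul]

theorem av_rA {u : X E → F} (hu : Core u) {z : X Z} (hz : z ∈ D.reg) (l : X L) :
    D.BiAv z (fun y => D.Pi C σ.G z (D.rA C σ u z l y)) 0 := by
  have c0 : ContDiff ℝ ∞ fun y => u (D.asm z l y) := hu.1.comp (D.bi_cont_asm z l)
  have c1 : Continuous fun y => fderiv ℝ u (D.asm z l y) :=
    (hu.1.continuous_fderiv (by simp)).comp (D.bi_cont_asm z l).continuous
  have c2 : Continuous fun y => lift 9 (D.Mop z) (D.perp z y) :=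
    (LinearMap.continuous_of_finiteDimensional _).comp (D.bi_cont_fib D.contDiffOn_perp.continuousOn hz)
  have e : ∀ y w, fderiv ℝ (fun y => u (D.asm z l y)) y w =
      fderiv ℝ u (D.asm z l y) (liftI 9 D.iH w) := fun y w =>
    DFunLike.congr_fun ((hu.1.differentiable (by simp) _).hasFDerivAt.comp y
      ((liftI 9 D.iH).toContinuousLinearMap.hasFDerivAt.const_add
        (liftI 9 D.iZ z + liftI 9 D.iL l))).fderiv w
  have h1 : ∀ h, D.BiAv z (fun y => fderiv ℝ u (D.asm z l y) (liftI 9 D.iH (D.perp z h)) -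
      ((⟪lift 9 (D.Mop z) (D.perp z y), h⟫_ℝ : ℝ) : ℂ) • u (D.asm z l y)) 0 := fun h => by
    refine (BiAv.sub ⟨D.integrable_bw hu.2 hz l (by fun_prop) fun y hy => by
      simp [fderiv_of_notMem_tsupport ℝ hy], rfl⟩ ⟨D.integrable_bw hu.2 hz l
      ((Complex.continuous_ofReal.comp (c2.inner continuous_const)).smul c0.continuous)
      fun y hy => by simp [image_eq_zero_of_notMem_tsupport hy], rfl⟩).congr (fun _ => rfl) ?_
    have h2 := D.fibre_ibp hz (c0.of_le (by simp)) (D.bi_compact_fib hu.2 z l fun y hy =>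
      image_eq_zero_of_notMem_tsupport hy) h
    simp only [e] at h2
    simp only [bT, bw, h2, Pi.smul_apply', Function.comp_apply, smul_smul, ← Complex.ofReal_mul,
      sub_self]
  refine ((BiAv.sum Finset.univ fun i => ((h1 (eb[X H] i)).clm
    ((D.CH C).θ (cmap σ.G σ.s (eb[X H] i)))).smul (-Complex.I)).clm (D.Pi C σ.G z)).congr
    (fun y => ?_) (by simp)
  have h2 := DFunLike.congr_fun (D.Pi_heavy C σ.G hz
    (lift 16 (D.Mop z) (cmap σ.G σ.s (D.perp z y)))) (u (D.asm z l y))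
  have h3 : cmap σ.G σ.s (lift 9 (D.Mop z) (D.perp z y)) =
      lift 16 (D.Mop z) (cmap σ.G σ.s (D.perp z y)) := DFunLike.congr_fun (mat_lift _ _) _
  simp only [mul_apply_eq_comp, sub_apply, map_sub,
    smul_apply, zero_apply, sub_eq_zero] at h2
  simp only [rA, map_sub, map_smul, smul_sub, Finset.sum_sub_distrib, ← Finset.smul_sum,
    bi_sum_θ_inner, h3, map_add, ← h2]
  module

theorem bi_av_gauss {z : X Z} (hz : z ∈ D.reg) {W : Type} [NormedAddCommGroup W] [NormedSpace ℝ W]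
    [FiniteDimensional ℝ W] {g : X H → W} (hg : Continuous g) {b : ℝ}
    (hb : ∀ y, ‖g y‖ ≤ b * (1 + ‖y‖ ^ 2)) {c : W}
    (hc : ∫ y, (D.wt z y * Real.exp (-2 * D.hq z y)) • g y = D.nu z ^ 2 • c) (A : W →ₗ[ℝ] F) :
    D.BiAv z (fun y => ((Real.exp (-D.hq z y) / D.nu z : ℝ) : ℂ) • A (g y)) (A c) := by
  have hν := (D.nu_pos hz).ne'
  have hi : Integrable fun y => (D.wt z y * Real.exp (-2 * D.hq z y)) • g y := by
    refine (((D.integrable_moment hz two_pos 0).add (D.integrable_moment hz two_pos 2)).const_mul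
      b).mono' (((D.bi_cont_fib D.contDiffOn_wt.continuousOn hz).mul (continuous_const.mul
        (D.bi_cont_fib D.contDiffOn_hq.continuousOn hz)).rexp).smul hg).aestronglyMeasurable
      (Eventually.of_forall fun y => ?_)
    have h0 := mul_nonneg (D.wt_nonneg z y) (Real.exp_pos (-2 * D.hq z y)).le
    rw [norm_smul, Real.norm_of_nonneg h0]
    exact (mul_le_mul_of_nonneg_left (hb y) h0).trans_eq (by simp only [Pi.add_apply]; ring)
  have e : ∀ y, D.bw z y • ((Real.exp (-D.hq z y) / D.nu z : ℝ) : ℂ) • A (g y) =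
      ((D.nu z)⁻¹ • LinearMap.toContinuousLinearMap A)
        ((D.wt z y * Real.exp (-2 * D.hq z y)) • g y) := fun y => by
    rw [show -2 * D.hq z y = -D.hq z y + -D.hq z y by ring, Real.exp_add]
    simp only [bw, Complex.coe_smul, smul_smul, map_smul, smul_apply,
      LinearMap.coe_toContinuousLinearMap']
    congr 1; ring
  refine ⟨by simp only [e]; exact ContinuousLinearMap.integrable_comp _ hi, ?_⟩
  simp only [bT, e]
  rw [ContinuousLinearMap.integral_comp_comm _ hi, hc]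
  simp only [Complex.coe_smul, smul_smul, map_smul, smul_apply,
    LinearMap.coe_toContinuousLinearMap']
  rw [show (D.nu z)⁻¹ * (D.nu z ^ 2 * (D.nu z)⁻¹) = 1 by field_simp, one_smul]

theorem bi_norm_perp_le {z : X Z} (hz : z ∈ D.reg) (y : X H) : ‖D.perp z y‖ ≤ ‖y‖ :=
  abs_le_of_sq_le_sq' (by nlinarith [D.norm_sq_perp_lam hz y, sq_nonneg ‖D.lam z (D.Phi z y)‖])
    (norm_nonneg _) |>.2

theorem bi_norm_pr_le (p : P) (v : X H) : ‖lift 9 (D.pr p) v‖ ≤ ‖v‖ := by
  refine (norm_lift_le _ 1 zero_le_one (fun w => ?_) v).trans_eq (one_mul _)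
  have h := real_inner_le_norm w (D.pr p w)
  rw [← D.pr_idem p w, ← D.pr_sym, D.pr_idem, real_inner_self_eq_norm_mul_norm] at h
  rw [one_mul]
  rcases (norm_nonneg (D.pr p w)).eq_or_lt with h0 | h0
  exacts [h0 ▸ norm_nonneg _, le_of_mul_le_mul_right h h0]

theorem av_bN {z : X Z} (hz : z ∈ D.reg) {f : F} (hf : D.Pi C σ.G z f = f) :
    D.BiAv z (fun y => D.Pi C σ.G z (D.bN C σ z y (((Real.exp (-D.hq z y) / D.nu z : ℝ) : ℂ) • f))) 0 := by
  have cp := D.bi_cont_fib D.contDiffOn_perp.continuousOn hz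
  obtain ⟨b, b0, hb⟩ := exists_norm_wpot 𝔤 σ.G σ.unit
  have h1 : ∀ a : F, D.BiAv z (fun y => ((Real.exp (-D.hq z y) / D.nu z : ℝ) : ℂ) • a) a := fun a => by
    simpa using D.bi_av_gauss hz (g := fun _ => (1 : ℝ)) (b := 1) (c := 1) continuous_const
      (fun y => by simp) (by simp [nu_sq]) (LinearMap.toSpanSingleton ℝ F a)
  have h2 : ∀ p (a : F), D.BiAv z (fun y => ((Real.exp (-D.hq z y) / D.nu z : ℝ) : ℂ) •
      (‖lift 9 (D.pr p) (D.perp z y)‖ ^ 2 • a)) ((4 * D.m p / D.M p z) • a) := fun p a =>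
    D.bi_av_gauss hz (g := fun y => ‖lift 9 (D.pr p) (D.perp z y)‖ ^ 2) (b := 1)
      (((LinearMap.continuous_of_finiteDimensional _).comp cp).norm.pow 2) (fun y => by
        have := pow_le_pow_left₀ (norm_nonneg _) ((D.bi_norm_pr_le p _).trans (D.bi_norm_perp_le hz y)) 2
        rw [norm_pow, norm_norm]; linarith) (D.moment_norm hz p) (LinearMap.toSpanSingleton ℝ F a)
  have h3 := D.bi_av_gauss hz (g := fun y => wpot 𝔤 σ.G σ.s (liftI 9 D.iH (D.perp z y))) (b := b) (c := 0)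
    ((contDiff_wpot 𝔤 σ.G σ.s).continuous.comp ((liftI 9 D.iH).continuous.comp cp)) (fun y => by
      refine (hb _ 0).1.trans ?_
      have := pow_le_pow_left₀ (norm_nonneg _) (D.bi_norm_perp_le hz y) 2
      rw [LinearIsometry.norm_map]
      gcongr; linarith) (by rw [D.moment_wpot σ σ.s hz, smul_zero])
    ((ContinuousLinearMap.apply ℝ F f).toLinearMap ∘ₗ
      ((ContinuousLinearMap.restrictScalarsₗ ℂ F F ℝ ℝ) ∘ₗ C.θ))
  have h4 := DFunLike.congr_fun (D.Pi_cubic C σ.G σ.s hz) f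
  have h5 : ∀ v, D.Pi C σ.G z (fderiv ℝ (D.Pi C σ.G) z v f) = 0 := fun v => by
    simpa [hf] using DFunLike.congr_fun (D.fderiv_Pi C σ.G hz v v).1 f
  simp only [mul_apply_eq_comp, hf, sum_apply, map_sum,
    smul_apply] at h4
  refine (((h1 ((-Complex.I) • ∑ p, ((D.m p / (2 * D.M p z) : ℝ) : ℂ) •
    (D.CZ C).θ (cmap σ.G σ.s (gradient (D.M p) z)) f)).add (h3.clm (D.Pi C σ.G z))).add
    ((BiAv.sum Finset.univ fun p => ((h1 ((5 / 2 * D.m p / D.M p z) •
      (D.CZ C).θ (cmap σ.G σ.s (gradient (D.M p) z)) f)).sub ((h2 p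
      ((D.CZ C).θ (cmap σ.G σ.s (gradient (D.M p) z)) f)).smul (1 / 2 : ℝ)))).smul Complex.I)).congr
    (fun y => ?_) ?_
  · simp only [bN, biS, map_add, map_sum, map_smul, bi_Pi_θZ, h5, hf, map_zero, smul_zero,
      Finset.sum_const_zero, add_zero, ← h4, bV, sum_apply,
      Finset.smul_sum, sub_smul]
    refine congrArg₂ _ (congrArg₂ _ (Finset.sum_congr rfl fun _ _ => smul_comm _ _ _) rfl)
      (Finset.sum_congr rfl fun _ _ => ?_)
    simp only [Complex.coe_smul, map_sub, map_smul, sub_apply, smul_apply]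
    module
  · simp only [map_zero, add_zero, Finset.smul_sum, ← Finset.sum_add_distrib, Complex.coe_smul]
    refine Finset.sum_eq_zero fun p _ => ?_
    have : (5 / 2 * D.m p / D.M p z : ℝ) = D.m p / (2 * D.M p z) + 1 / 2 * (4 * D.m p / D.M p z) := by
      ring
    rw [this]
    module

end Levi

end Crest.Agent.R330

end
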