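import Crest.Agent.R330.BI.B

/-! # Row 330, BI/C: the pointwise identity, elementary bounds -/

set_option autoImplicit false
set_option linter.unusedSectionVars false

noncomputable section

open MeasureTheory Filter Topology
open scoped InnerProductSpace ContDiff Matrix
open Crest.MathPhysics.MatrixQM (GammaNine)

namespace Crest.Agent.R330

variable {E Z L H F : Type}
  [NormedAddCommGroup E] [InnerProductSpace ℝ E] [FiniteDimensional ℝ E]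
  [NormedAddCommGroup Z] [InnerProductSpace ℝ Z] [FiniteDimensional ℝ Z]
  [NormedAddCommGroup L] [InnerProductSpace ℝ L] [FiniteDimensional ℝ L]
  [NormedAddCommGroup H] [InnerProductSpace ℝ H] [FiniteDimensional ℝ H]
  [NormedAddCommGroup F] [InnerProductSpace ℂ F] [FiniteDimensional ℂ F]
  [MeasurableSpace E] [BorelSpace E] [MeasurableSpace Z] [BorelSpace Z]
  [MeasurableSpace L] [BorelSpace L] [MeasurableSpace H] [BorelSpace H]
  {P : Type} [Fintype P] {𝔤 : Lie E} (D : Levi 𝔤 Z L H P) (C : Cl (Th E) F) (σ : Spn)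

namespace Levi

local notation "eb[" V "]" => stdOrthonormalBasis ℝ V

/-- the correction of the slice derivative -/
def bv (x v : X E) : X E := D.kap x (D.gH (D.eta x v) (D.asm 0 (D.lc x) (D.yc x)))

theorem bi_sH_sub (a b : H) : D.biS C (a - b) = D.biS C a - D.biS C b := by
  rw [biS, biS, biS, ← C.S_sub]
  congr 1
  ext; simp

theorem bi_Qe_split (ε : ℝ) (u : X E → F) (x : X E) : Qe 𝔤 C σ ε u x =
    ∑ i, (-Complex.I) • (D.CZ C).θ (cmap σ.G σ.s (eb[X Z] i))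
        (fderiv ℝ u x (liftI 9 D.iZ (eb[X Z] i))) +
      ∑ i, (-Complex.I) • (D.CL C).θ (cmap σ.G σ.s (eb[X L] i))
        (fderiv ℝ u x (liftI 9 D.iL (eb[X L] i))) +
      ∑ i, (-Complex.I) • (D.CH C).θ (cmap σ.G σ.s (eb[X H] i))
        (fderiv ℝ u x (liftI 9 D.iH (eb[X H] i))) + C.θ (wd 𝔤 σ ε (fun _ => 0) x) (u x) := by
  have h := D.sum_onb_split (LinearMap.mk₂ ℝ
    (fun v w => (-Complex.I) • C.θ (cmap σ.G σ.s v) (fderiv ℝ u x w)) (fun _ _ _ => by simp)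
    (fun r _ _ => by simp [smul_comm r]) (fun _ _ _ => by simp) fun r _ _ => by simp [smul_comm r])
  simp only [LinearMap.mk₂_apply, cmap_iZ, cmap_iL, cmap_iH] at h
  simp only [Qe, Qd, dirac, h]
  rfl

theorem bi_pt_id (ε : ℝ) {u : X E → F} {z : X Z} {l : X L} {y : X H} (hz : z ∈ D.reg)
    (hD : IsUnit (D.Dop (D.asm z l y))) (hG : GaussAt 𝔤 C u (D.asm z l y)) :
    Qe 𝔤 C σ ε u (D.asm z l y) - D.rQ C σ ε u z l y - D.rA C σ u z l y -
        D.bN C σ z y (u (D.asm z l y)) =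
      ∑ i, Complex.I • (D.CZ C).θ (cmap σ.G σ.s (eb[X Z] i))
        (fderiv ℝ u (D.asm z l y) (D.bv (D.asm z l y) (liftI 9 D.iZ (eb[X Z] i)))) +
      ∑ i, Complex.I • (D.CH C).θ (cmap σ.G σ.s (eb[X H] i))
        (fderiv ℝ u (D.asm z l y) (D.bv (D.asm z l y) (liftI 9 D.iH (eb[X H] i)))) +
      ∑ i, (-Complex.I) • (D.CZ C).θ (cmap σ.G σ.s (eb[X Z] i))
        (D.biS C (D.eta (D.asm z l y) (liftI 9 D.iZ (eb[X Z] i))) (u (D.asm z l y))) +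
      ∑ i, (-Complex.I) • (D.CH C).θ (cmap σ.G σ.s (eb[X H] i))
        (D.biS C (D.eta (D.asm z l y) (liftI 9 D.iH (eb[X H] i)) - D.Minv z (D.Phi z (eb[X H] i)))
          (u (D.asm z l y))) +
      C.θ (fderiv ℝ (wpot 𝔤 σ.G σ.s) (liftI 9 D.iL l) (liftI 9 D.iH y)) (u (D.asm z l y)) +
      C.θ (wpot 𝔤 σ.G σ.s (liftI 9 D.iH y) - wpot 𝔤 σ.G σ.s (liftI 9 D.iH (D.perp z y)))
        (u (D.asm z l y)) +
      (D.CH C).θ (ε • cmap σ.G σ.s (mat V0 y)) (u (D.asm z l y)) +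
      ∑ i, Complex.I • (D.CZ C).θ (cmap σ.G σ.s (eb[X Z] i))
        (((D.ba z y (eb[X Z] i) - ⟪D.bV z y, eb[X Z] i⟫_ℝ : ℝ) : ℂ) • u (D.asm z l y)) := by
  have s1 : ∀ v, fderiv ℝ u (D.asm z l y) (D.kap (D.asm z l y) v) = fderiv ℝ u (D.asm z l y) v +
      fderiv ℝ u (D.asm z l y) (D.bv (D.asm z l y) v) -
      D.biS C (D.eta (D.asm z l y) v) (u (D.asm z l y)) := fun v => by
    rw [D.fderiv_slice C hG v, D.tau_eq (by simpa using hz) hD, map_sub, bv, biS]; abel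
  have s2 := fun h => s1 (liftI 9 D.iH h)
  simp only [kap_heavy, zc_asm] at s2
  have eZ : ∀ v, C.θ (liftI 16 D.iZ v) = (D.CZ C).θ v := fun _ => rfl
  have eL : ∀ v, C.θ (liftI 16 D.iL v) = (D.CL C).θ v := fun _ => rfl
  have eH : ∀ v, C.θ (liftI 16 D.iH v) = (D.CH C).θ v := fun _ => rfl
  rw [D.bi_Qe_split, wd_asm, D.fderiv_wpot_central σ.G σ.s hz, rQ, rA, bN,
    ← bi_sum_θ_inner (D.CZ C) (cmap σ.G σ.s) (D.bV z y)]
  generalize ε • cmap σ.G σ.s (mat V0 z) = w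
  generalize ε • cmap σ.G σ.s (mat V0 y) = w'
  simp only [s1, s2, bi_sH_sub, map_add, map_sub, map_smul, add_apply, sub_apply, eZ, eL, eH, smul_add,
    smul_sub, Finset.sum_add_distrib, Finset.sum_sub_distrib, Finset.smul_sum, neg_smul,
    Finset.sum_neg_distrib, Complex.ofReal_sub, sub_smul]
  abel

theorem bi_norm_Pi_le {z : X Z} (hz : z ∈ D.reg) (a : F) : ‖D.Pi C σ.G z a‖ ≤ ‖a‖ := by
  have h := ((D.CH C).vac_sa (D.isCx_J σ.G hz)).isSymmetric a (D.Pi C σ.G z a)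
  have h1 : ⟪D.Pi C σ.G z a, D.Pi C σ.G z a⟫_ℂ = ⟪a, D.Pi C σ.G z a⟫_ℂ :=
    h.trans (congrArg _ (D.bi_Pi_Pi C σ hz a))
  have h2 := norm_inner_le_norm (𝕜 := ℂ) a (D.Pi C σ.G z a)
  rw [← h1, inner_self_eq_norm_sq_to_K, norm_pow, RCLike.norm_ofReal, abs_norm, sq] at h2
  rcases (norm_nonneg (D.Pi C σ.G z a)).eq_or_lt with h0 | h0
  exacts [h0 ▸ norm_nonneg _, le_of_mul_le_mul_right h2 h0]

theorem bi_Pi_θ_le {Θ : Type} [NormedAddCommGroup Θ] [InnerProductSpace ℝ Θ] [FiniteDimensional ℝ Θ]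
    (C' : Cl Θ F) {z : X Z} (hz : z ∈ D.reg) (v : Θ) (a : F) :
    ‖D.Pi C σ.G z (C'.θ v a)‖ ≤ ‖v‖ * ‖a‖ :=
  (D.bi_norm_Pi_le C σ hz _).trans (C'.norm_θ_le v a)

theorem bi_Pi_odd {z : X Z} (hz : z ∈ D.reg) (v : Th H) (a : F) :
    D.Pi C σ.G z ((D.CH C).θ v a) =
      D.Pi C σ.G z ((D.CH C).θ v ((1 / 2 : ℂ) • (a - D.Gam C a))) := by
  have h1 := DFunLike.congr_fun ((D.isPar_Gam C).2.2 v) a
  have h2 := DFunLike.congr_fun (D.Gam_Pi C σ.G hz).2 ((D.CH C).θ v a)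
  simp only [mul_apply_eq_comp, neg_apply] at h1 h2
  rw [h1, map_neg, neg_eq_iff_eq_neg] at h2
  simp only [map_smul, map_sub, h2]
  module

theorem bi_norm_sum_le' {ι : Type} [Fintype ι] (T : F →L[ℂ] F) {s : ℂ} (hs : ‖s‖ = 1) {a : ι → F} {c : ℝ}
    (h : ∀ i, ‖T (a i)‖ ≤ c) : ‖T (∑ i, s • a i)‖ ≤ Fintype.card ι * c := by
  rw [map_sum]
  refine (norm_sum_le _ _).trans ((Finset.sum_le_card_nsmul _ _ c fun i _ => ?_).trans_eq (by simp))
  rw [map_smul, norm_smul, hs, one_mul]; exact h i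

theorem bi_norm_lin_le {V : Type} [NormedAddCommGroup V] [InnerProductSpace ℝ V] [FiniteDimensional ℝ V]
    (A : V →ₗ[ℝ] F) (v : V) {g : ℝ} (hg : ∑ i, ‖A (eb[V] i)‖ ^ 2 ≤ g) : ‖A v‖ ≤ √g * ‖v‖ := by
  borelize V
  have h := norm_fderiv_apply_sq_le (LinearMap.toContinuousLinearMap A) 0 v
  rw [gsq, ContinuousLinearMap.fderiv] at h
  simp only [LinearMap.coe_toContinuousLinearMap'] at h
  rw [← Real.sqrt_sq (norm_nonneg v), ← Real.sqrt_mul (le_trans (by positivity) hg)]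
  exact Real.le_sqrt_of_sq_le (h.trans (by gcongr))

theorem bi_d_le (u : X E → F) (x v : X E) : ‖fderiv ℝ u x v‖ ≤ √(gsq u x) * ‖v‖ :=
  bi_norm_lin_le (fderiv ℝ u x).toLinearMap v le_rfl

theorem bi_dZ_le (u : X E → F) (x : X E) (v : X Z) :
    ‖fderiv ℝ u x (liftI 9 D.iZ v)‖ ≤ √(D.glight u x) * ‖v‖ :=
  bi_norm_lin_le ((fderiv ℝ u x).toLinearMap ∘ₗ (liftI 9 D.iZ).toLinearMap) v
    (le_add_of_nonneg_right (by positivity))

theorem bi_dL_le (u : X E → F) (x : X E) (v : X L) :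
    ‖fderiv ℝ u x (liftI 9 D.iL v)‖ ≤ √(D.glight u x) * ‖v‖ :=
  bi_norm_lin_le ((fderiv ℝ u x).toLinearMap ∘ₗ (liftI 9 D.iL).toLinearMap) v
    (le_add_of_nonneg_left (by positivity))

theorem bi_dP_le (u : X E → F) (x : X E) (v : X H) :
    ‖fderiv ℝ u x (liftI 9 D.iH (D.perp (D.zc x) v))‖ ≤ √(D.gperp u x) * ‖v‖ := by
  obtain ⟨A, hA, -⟩ := D.exists_perp_lin (D.zc x)
  rw [← hA]
  exact bi_norm_lin_le ((fderiv ℝ u x).toLinearMap ∘ₗ (liftI 9 D.iH).toLinearMap ∘ₗ A) v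
    (by simp only [gperp, ← hA]; rfl)

theorem bi_fderiv_odd {u : X E → F} {x : X E} (hu : DifferentiableAt ℝ u x) (v : X E) :
    fderiv ℝ (D.odd C u) x v = (1 / 2 : ℂ) • (fderiv ℝ u x v - D.Gam C (fderiv ℝ u x v)) :=
  DFunLike.congr_fun ((hu.hasFDerivAt.sub (((D.Gam C).restrictScalars ℝ).hasFDerivAt.comp x
    hu.hasFDerivAt)).const_smul (1 / 2 : ℂ)).fderiv v

theorem bi_exists_sH : ∃ K : ℝ, 0 < K ∧ ∀ ξ a, ‖D.biS C ξ a‖ ≤ K * ‖ξ‖ * ‖a‖ := by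
  obtain ⟨b, b0, hb⟩ := 𝔤.exists_norm_br
  refine ⟨(Module.finrank ℝ (Th E) / 4 + 1) * b, by positivity, fun ξ a => ?_⟩
  refine ((D.biS C ξ).le_opNorm a).trans (mul_le_mul_of_nonneg_right ((C.norm_S_le _ (b * ‖ξ‖)
    (by positivity) (norm_lift_le _ _ (by positivity) fun v => ?_)).trans ?_) (norm_nonneg _))
  · simpa using hb (D.iH ξ) v
  · nlinarith [mul_nonneg b0.le (norm_nonneg ξ)]

end Levi

end Crest.Agent.R330

end
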