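import Crest.Agent.R330.BI.C

/-! # Row 330, BI/D: the pointwise bound in the tube -/

set_option autoImplicit false
set_option linter.unusedSectionVars false

noncomputable section

open MeasureTheory Filter Topology
open scoped InnerProductSpace ContDiff Matrix
open Crest.MathPhysics.MatrixQM (GammaNine)

namespace Crest.Agent.R330

variable {E Z L H F : Type}
  [NormedAddCommGroup E] [InnerProductSpace ℝ E] [FiniteDimensional ℝ E]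
  [NormedAddCommGroup Z] [InnerProductSpace ℝ Z] [FiniteDimensional ℝ Z]
  [NormedAddCommGroup L] [InnerProductSpace ℝ L] [FiniteDimensional ℝ L]
  [NormedAddCommGroup H] [InnerProductSpace ℝ H] [FiniteDimensional ℝ H]
  [NormedAddCommGroup F] [InnerProductSpace ℂ F] [FiniteDimensional ℂ F]
  [MeasurableSpace E] [BorelSpace E] [MeasurableSpace Z] [BorelSpace Z]
  [MeasurableSpace L] [BorelSpace L] [MeasurableSpace H] [BorelSpace H]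
  {P : Type} [Fintype P] {𝔤 : Lie E} (D : Levi 𝔤 Z L H P) (C : Cl (Th E) F) (σ : Spn)

namespace Levi

local notation "eb[" V "]" => stdOrthonormalBasis ℝ V

/-- the tube bounds at `x = asm z l y`, `ρ = ‖x‖` -/
structure BiTB (B θ ρ : ℝ) (z : X Z) (l : X L) (y : X H) : Prop where
  reg : z ∈ D.reg
  unit : IsUnit (D.Dop (D.asm z l y))
  pos : 0 < ρ
  B0 : 0 < B
  θ0 : 0 ≤ θ
  inv : ‖Ring.inverse (D.Dop (D.asm z l y))‖ ≤ B / ρ ^ 2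
  inv' : ‖Ring.inverse (D.Dop (D.asm z l y)) - LinearMap.toContinuousLinearMap (D.Minv z)‖ ≤
    B * θ / ρ ^ 2
  dPhi : ∀ v, ‖D.dPhi (D.asm z l y) v‖ ≤ B * (ρ * ‖D.yc v‖ + ‖y‖ * ‖D.zc v‖)
  lam : ∀ t, ‖D.lam z t‖ ≤ B * ‖t‖ / ρ
  kap : ∀ v, ‖D.kap (D.asm z l y) v‖ ≤ B * ‖v‖
  gH : ∀ ξ v, ‖D.gH ξ v‖ ≤ B * ‖ξ‖ * ‖v‖
  small : ‖l‖ + ‖y‖ ≤ θ * ρ

theorem bi_exists_TB {κ : ℝ} (hκ : 1 ≤ κ) : ∃ θ₀ B : ℝ, 0 < θ₀ ∧ θ₀ ≤ 1 / 4 ∧ 0 < B ∧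
    ∀ θ, 0 ≤ θ → θ ≤ θ₀ → ∀ z l y, D.asm z l y ∈ D.tube κ θ → D.asm z l y ≠ 0 →
      D.BiTB B θ ‖D.asm z l y‖ z l y := by
  obtain ⟨θ₀, B, h1, h2, h3, h⟩ := D.tube_bounds hκ
  refine ⟨θ₀, B, h1, h2, h3, fun θ t0 t1 z l y hx h0 => ?_⟩
  obtain ⟨a1, a2, -, a3, -, -, a4, a5, a6, a7, a8⟩ := h θ t0 t1 _ hx h0
  have a9 := hx.2
  simp only [zc_asm, lc_asm, yc_asm] at a1 a4 a5 a6 a9
  exact ⟨a1, a2, norm_pos_iff.2 h0, h3, t0, a3, a4, a5, a6, a7, a8, a9⟩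

theorem bi_kap_eq (z : X Z) (l : X L) (y : X H) (v : X E) : D.kap (D.asm z l y) v =
    liftI 9 D.iZ (D.zc v) + liftI 9 D.iL (D.lc v) + liftI 9 D.iH (D.perp z (D.yc v)) -
      liftI 9 D.iH (D.lam z (D.dPhi (D.asm z l y) (liftI 9 D.iZ (D.zc v)))) := by
  have h : ∀ a b, D.lam z (a + b) = D.lam z a + D.lam z b := fun a b => by
    ext; simp [lam, add_comm]
  have h1 := D.asm_eq v
  simp only [kap, dPhi, bi_iZ_eq, zc_asm, yc_asm, bi_Phi_zero', zero_add, h, perp, map_add, map_sub]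
  rw [← bi_iZ_eq]
  nth_rw 1 [← h1]
  rw [asm]; abel

theorem bi_light_gH (ξ : H) (l : X L) (y : X H) :
    D.zc (D.gH ξ (D.asm 0 l y)) = D.zc (D.gH ξ (liftI 9 D.iH y)) ∧
      D.lc (D.gH ξ (D.asm 0 l y)) = D.lc (D.gH ξ (liftI 9 D.iH y)) := by
  have : D.gH ξ (D.asm 0 l y) = D.gH ξ (liftI 9 D.iL l) + D.gH ξ (liftI 9 D.iH y) := by
    simp [gH, asm]
  rw [this, gH_light, bi_iH_eq, map_add, map_add, zc_asm, lc_asm, zero_add, zero_add]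
  exact ⟨rfl, rfl⟩

namespace BiTB
variable {D} {B θ ρ : ℝ} {z : X Z} {l : X L} {y : X H} (h : D.BiTB B θ ρ z l y)
include h

theorem y_le : ‖y‖ ≤ θ * ρ := le_trans (by linarith [norm_nonneg l]) h.small
theorem l_le : ‖l‖ ≤ θ * ρ := le_trans (by linarith [norm_nonneg y]) h.small

theorem asm_le : ‖D.asm 0 l y‖ ≤ θ * ρ := by
  refine le_trans ?_ h.small
  simpa [asm] using norm_add_le (liftI 9 D.iL l) (liftI 9 D.iH y)

theorem dZ (e : X Z) : ‖D.dPhi (D.asm z l y) (liftI 9 D.iZ e)‖ ≤ B * (‖y‖ * ‖e‖) := by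
  simpa [bi_iZ_eq] using h.dPhi (liftI 9 D.iZ e)

theorem dH (e : X H) : D.dPhi (D.asm z l y) (liftI 9 D.iH e) = D.Phi z e := by
  simp [bi_iH_eq, Levi.dPhi, bi_Phi_zero]

theorem PhiH {e : X H} (he : ‖e‖ = 1) : ‖D.Phi z e‖ ≤ B * ρ := by
  have := h.dPhi (liftI 9 D.iH e)
  rw [h.dH] at this
  simpa [bi_iH_eq, he] using this

theorem etaZ {e : X Z} (he : ‖e‖ = 1) :
    ‖D.eta (D.asm z l y) (liftI 9 D.iZ e)‖ ≤ B ^ 2 * ‖y‖ / ρ ^ 2 := by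
  have := h.B0
  refine ((ContinuousLinearMap.le_opNorm _ _).trans (mul_le_mul h.inv (h.dZ e) (norm_nonneg _)
    (by positivity))).trans_eq ?_
  rw [he]; ring

theorem etaH {e : X H} (he : ‖e‖ = 1) : ‖D.eta (D.asm z l y) (liftI 9 D.iH e)‖ ≤ B ^ 2 / ρ := by
  have := h.B0
  have := h.pos
  rw [eta, h.dH]
  refine ((ContinuousLinearMap.le_opNorm _ _).trans (mul_le_mul h.inv (h.PhiH he) (norm_nonneg _)
    (by positivity))).trans_eq ?_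
  field_simp

theorem etaH' {e : X H} (he : ‖e‖ = 1) :
    ‖D.eta (D.asm z l y) (liftI 9 D.iH e) - D.Minv z (D.Phi z e)‖ ≤ B ^ 2 * (θ / ρ) := by
  have := h.B0
  have := h.pos
  have := h.θ0
  rw [eta, h.dH]
  refine (((Ring.inverse (D.Dop (D.asm z l y)) - LinearMap.toContinuousLinearMap
    (D.Minv z)).le_opNorm _).trans (mul_le_mul h.inv' (h.PhiH he) (norm_nonneg _)
    (by positivity))).trans_eq ?_
  field_simp

theorem bvZ {e : X Z} (he : ‖e‖ = 1) :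
    ‖D.bv (D.asm z l y) (liftI 9 D.iZ e)‖ ≤ B ^ 4 * (‖y‖ * (θ / ρ)) := by
  have := h.B0
  have := h.pos
  rw [bv, lc_asm, yc_asm]
  calc _ ≤ B * (B * (B ^ 2 * ‖y‖ / ρ ^ 2) * (θ * ρ)) := (h.kap _).trans (by
        gcongr
        refine (h.gH _ _).trans ?_
        gcongr
        exacts [h.etaZ he, h.asm_le])
    _ = _ := by field_simp

theorem bvH {e : X H} (he : ‖e‖ = 1) {u : X E → F} (hu : DifferentiableAt ℝ u (D.asm z l y)) :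
    ‖D.Pi C σ.G z ((D.CH C).θ (cmap σ.G σ.s e)
      (fderiv ℝ u (D.asm z l y) (D.bv (D.asm z l y) (liftI 9 D.iH e))))‖ ≤
      B ^ 3 * (θ * √(D.gperp (D.odd C u) (D.asm z l y))) +
        2 * B ^ 3 * (‖y‖ * (√(D.glight u (D.asm z l y)) / ρ)) +
        B ^ 5 * (‖y‖ * (θ / ρ * √(gsq u (D.asm z l y)))) := by
  have := h.B0
  have := h.pos
  have := h.θ0
  have hc : ‖cmap σ.G σ.s e‖ = 1 := by rw [norm_cmap σ.G σ.unit, he]
  have k : ∀ a, ‖D.Pi C σ.G z ((D.CH C).θ (cmap σ.G σ.s e) a)‖ ≤ ‖a‖ := fun a => by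
    simpa [hc] using D.bi_Pi_θ_le C σ (D.CH C) h.reg (cmap σ.G σ.s e) a
  rw [bv, lc_asm, yc_asm, bi_kap_eq]
  obtain ⟨e1, e2⟩ := D.bi_light_gH (D.eta (D.asm z l y) (liftI 9 D.iH e)) l y
  have b1 : ‖D.gH (D.eta (D.asm z l y) (liftI 9 D.iH e)) (liftI 9 D.iH y)‖ ≤ B * (B ^ 2 / ρ) * ‖y‖ := by
    refine (h.gH _ _).trans ?_
    rw [LinearIsometry.norm_map]
    gcongr
    exact h.etaH he
  have b2 : ‖D.gH (D.eta (D.asm z l y) (liftI 9 D.iH e)) (D.asm 0 l y)‖ ≤ B * (B ^ 2 / ρ) * (θ * ρ) := by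
    refine (h.gH _ _).trans ?_
    gcongr
    exacts [h.etaH he, h.asm_le]
  have b3 := e1 ▸ (D.norm_zc_le _).trans b1
  have b4 := e2 ▸ (D.norm_lc_le _).trans b1
  have b5 := (D.norm_yc_le _).trans b2
  generalize D.gH (D.eta (D.asm z l y) (liftI 9 D.iH e)) (D.asm 0 l y) = v at *
  have b6 : ‖D.lam z (D.dPhi (D.asm z l y) (liftI 9 D.iZ (D.zc v)))‖ ≤
      B * (B * (θ * ρ * (B * (B ^ 2 / ρ) * ‖y‖))) / ρ := by
    refine (h.lam _).trans ?_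
    gcongr
    refine (h.dZ _).trans ?_
    gcongr
    exact h.y_le
  have c1 := (k _).trans ((D.bi_dZ_le u (D.asm z l y) _).trans
    (mul_le_mul_of_nonneg_left b3 (Real.sqrt_nonneg _)))
  have c2 := (k _).trans ((D.bi_dL_le u (D.asm z l y) _).trans
    (mul_le_mul_of_nonneg_left b4 (Real.sqrt_nonneg _)))
  have c3 := (k _).trans ((D.bi_dP_le (D.odd C u) (D.asm z l y) _).trans
    (mul_le_mul_of_nonneg_left b5 (Real.sqrt_nonneg _)))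
  have c4 := (k _).trans ((bi_d_le u (D.asm z l y) (liftI 9 D.iH _)).trans
    (mul_le_mul_of_nonneg_left (((liftI 9 D.iH).norm_map _).trans_le b6) (Real.sqrt_nonneg _)))
  rw [D.bi_fderiv_odd C hu, ← D.bi_Pi_odd C σ h.reg, zc_asm] at c3
  simp only [map_add, map_sub]
  refine ((norm_sub_le _ _).trans (add_le_add (norm_add₃_le.trans
    (add_le_add_three c1 c2 c3)) c4)).trans_eq ?_
  field_simp
  ring

end BiTB

theorem bi_inner_gradient (p : P) (z v : X Z) : ⟪gradient (D.M p) z, v⟫_ℝ = fderiv ℝ (D.M p) z v :=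
  InnerProductSpace.toDual_symm_apply

theorem ba_sub (z : X Z) (y : X H) (v : X Z) : D.ba z y v - ⟪D.bV z y, v⟫_ℝ =
    -(fderiv ℝ (fun q : X Z × X H => D.hq q.1 q.2) (z, y) (v, -D.lam z (D.Phi v y)) -
      1 / 2 * ∑ p, fderiv ℝ (D.M p) z v * ‖lift 9 (D.pr p) (D.perp z y)‖ ^ 2) := by
  simp only [ba, bV, sum_inner, real_inner_smul_left, bi_inner_gradient, sub_mul, Finset.mul_sum,
    Finset.sum_sub_distrib]
  rw [Finset.sum_congr rfl fun p _ => mul_div_right_comm (5 / 2 * D.m p : ℝ) _ (D.M p z),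
    Finset.sum_congr rfl fun p _ => show 1 / 2 * (fderiv ℝ (D.M p) z v *
      ‖lift 9 (D.pr p) (D.perp z y)‖ ^ 2) = 1 / 2 * ‖lift 9 (D.pr p) (D.perp z y)‖ ^ 2 *
      fderiv ℝ (D.M p) z v by ring]
  ring

theorem bi_pt_bound {κ B : ℝ} (hκ : 1 ≤ κ) (hB : 0 < B) : ∃ K : ℝ, 0 < K ∧
    ∀ {θ ρ ε : ℝ} {z : X Z} {l : X L} {y : X H} {u : X E → F}, D.BiTB B θ ρ z l y → 0 ≤ ε →
      ‖D.Phi z y‖ < 1 → DifferentiableAt ℝ u (D.asm z l y) → GaussAt 𝔤 C u (D.asm z l y) →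
      (∀ p, ‖z‖ ≤ κ * D.M p z) → ρ ≤ 2 * ‖z‖ →
      ‖D.Pi C σ.G z (Qe 𝔤 C σ ε u (D.asm z l y) - D.rQ C σ ε u z l y - D.rA C σ u z l y -
        D.bN C σ z y (u (D.asm z l y)))‖ ≤
      K * (θ * √(D.gperp (D.odd C u) (D.asm z l y)) + θ * ρ * ‖y‖ * ‖D.odd C u (D.asm z l y)‖ +
        θ / ρ * ‖u (D.asm z l y)‖ + ‖y‖ * (θ / ρ * √(gsq u (D.asm z l y))) +
        ‖y‖ * (√(D.glight u (D.asm z l y)) / ρ) + ‖y‖ * (1 / ρ * ‖u (D.asm z l y)‖) +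
        ‖y‖ * (ε * ‖u (D.asm z l y)‖)) := by
  obtain ⟨S, S0, hS⟩ := D.bi_exists_sH C
  obtain ⟨b, b0, hb⟩ := exists_norm_wpot 𝔤 σ.G σ.unit
  obtain ⟨q, q0, hq⟩ := D.fderiv_hq hκ
  obtain ⟨nZ, eZ⟩ : ∃ n : ℝ, (Fintype.card (Fin (Module.finrank ℝ (X Z))) : ℝ) = n := ⟨_, rfl⟩
  obtain ⟨nH, eH⟩ : ∃ n : ℝ, (Fintype.card (Fin (Module.finrank ℝ (X H))) : ℝ) = n := ⟨_, rfl⟩
  have nZ0 : 0 ≤ nZ := eZ ▸ Nat.cast_nonneg _
  have nH0 : 0 ≤ nH := eH ▸ Nat.cast_nonneg _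
  refine ⟨nZ * B ^ 4 + nH * (2 * B ^ 3) + nH * B ^ 5 + nZ * (S * B ^ 2) + nH * (S * B ^ 2) + b +
    2 * b * B + 4 + nZ * (2 * q), by positivity,
    fun {θ ρ ε z l y u} h ε0 hΦ hu hG hz hρ => ?_⟩
  have ρ0 := h.pos
  have θ0 := h.θ0
  have kZ : ∀ i a, ‖D.Pi C σ.G z ((D.CZ C).θ (cmap σ.G σ.s (eb[X Z] i)) a)‖ ≤ ‖a‖ := fun i a => by
    simpa [norm_cmap σ.G σ.unit] using D.bi_Pi_θ_le C σ (D.CZ C) h.reg (cmap σ.G σ.s (eb[X Z] i)) a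
  have kH : ∀ i a, ‖D.Pi C σ.G z ((D.CH C).θ (cmap σ.G σ.s (eb[X H] i)) a)‖ ≤ ‖a‖ := fun i a => by
    simpa [norm_cmap σ.G σ.unit] using D.bi_Pi_θ_le C σ (D.CH C) h.reg (cmap σ.G σ.s (eb[X H] i)) a
  have t1 := bi_norm_sum_le' (D.Pi C σ.G z) Complex.norm_I fun i => (kZ i _).trans
    ((bi_d_le u (D.asm z l y) _).trans (mul_le_mul_of_nonneg_left
      (h.bvZ ((eb[X Z]).norm_eq_one i)) (Real.sqrt_nonneg _)))
  have t2 := bi_norm_sum_le' (D.Pi C σ.G z) Complex.norm_I fun i =>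
    h.bvH C σ ((eb[X H]).norm_eq_one i) hu
  have t3 := bi_norm_sum_le' (D.Pi C σ.G z) ((norm_neg _).trans Complex.norm_I)
    (c := S * (B ^ 2 * (θ / ρ)) * ‖u (D.asm z l y)‖) fun i => (kZ i _).trans
    ((hS (D.eta (D.asm z l y) (liftI 9 D.iZ (eb[X Z] i))) (u (D.asm z l y))).trans (by
      gcongr
      refine (h.etaZ ((eb[X Z]).norm_eq_one i)).trans ?_
      calc _ ≤ B ^ 2 * (θ * ρ) / ρ ^ 2 := by gcongr; exact h.y_le
        _ = _ := by field_simp))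
  have t4 := bi_norm_sum_le' (D.Pi C σ.G z) ((norm_neg _).trans Complex.norm_I)
    (c := S * (B ^ 2 * (θ / ρ)) * ‖u (D.asm z l y)‖) fun i => (kH i _).trans
    ((hS _ (u (D.asm z l y))).trans (by gcongr; exact h.etaH' ((eb[X H]).norm_eq_one i)))
  have t5 : ‖D.Pi C σ.G z (C.θ (fderiv ℝ (wpot 𝔤 σ.G σ.s) (liftI 9 D.iL l) (liftI 9 D.iH y))
      (u (D.asm z l y)))‖ ≤ b * (θ * ρ) * ‖y‖ * ‖D.odd C u (D.asm z l y)‖ := by
    have h1 := (hb (liftI 9 D.iL l) (liftI 9 D.iH y)).2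
    rw [fderiv_wpot_light] at h1 ⊢
    simp only [LinearIsometry.norm_map] at h1
    refine (congrArg _ (D.bi_Pi_odd C σ h.reg _ _)).trans_le
      ((D.bi_Pi_θ_le C σ (D.CH C) h.reg _ _).trans (mul_le_mul_of_nonneg_right (h1.trans ?_)
        (norm_nonneg _)))
    gcongr
    exact h.l_le
  have t6 : ‖D.Pi C σ.G z (C.θ (wpot 𝔤 σ.G σ.s (liftI 9 D.iH y) -
      wpot 𝔤 σ.G σ.s (liftI 9 D.iH (D.perp z y))) (u (D.asm z l y)))‖ ≤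
      2 * b * ‖y‖ * (B * 1 / ρ) * ‖u (D.asm z l y)‖ := by
    refine (D.bi_Pi_θ_le C σ C h.reg _ _).trans (mul_le_mul_of_nonneg_right ?_ (norm_nonneg _))
    have e : liftI 9 D.iH y = liftI 9 D.iH (D.perp z y) + liftI 9 D.iH (D.lam z (D.Phi z y)) := by
      simp [perp]
    have h1 : ‖D.lam z (D.Phi z y)‖ ≤ B * 1 / ρ := (h.lam _).trans (by gcongr)
    have h2 : ‖D.lam z (D.Phi z y)‖ ≤ ‖y‖ := abs_le_of_sq_le_sq' (by
      nlinarith [D.norm_sq_perp_lam h.reg y, sq_nonneg ‖D.perp z y‖]) (norm_nonneg _) |>.2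
    have h3 := D.bi_norm_perp_le h.reg y
    rw [e, wpot_add, add_assoc, add_sub_cancel_left]
    refine (norm_add_le _ _).trans ((add_le_add (hb _ _).2 (hb _ 0).1).trans ?_)
    simp only [LinearIsometry.norm_map, sq]
    calc _ ≤ b * ‖y‖ * (B * 1 / ρ) + b * (‖y‖ * (B * 1 / ρ)) := by gcongr
      _ = _ := by ring
  have t7 : ‖D.Pi C σ.G z ((D.CH C).θ (ε • cmap σ.G σ.s (mat V0 y)) (u (D.asm z l y)))‖ ≤
      ε * (4 * ‖y‖) * ‖u (D.asm z l y)‖ := by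
    refine (D.bi_Pi_θ_le C σ _ h.reg _ _).trans ?_
    rw [norm_smul, norm_cmap σ.G σ.unit, Real.norm_of_nonneg ε0]
    gcongr
    exact norm_V0_le y
  have t8 := bi_norm_sum_le' (D.Pi C σ.G z) Complex.norm_I
    (c := q * ‖y‖ * 2 / ρ * ‖u (D.asm z l y)‖) fun i => (kZ i
      (((D.ba z y (eb[X Z] i) - ⟪D.bV z y, eb[X Z] i⟫_ℝ : ℝ) : ℂ) • u (D.asm z l y))).trans (by
    have z0 : 0 < ‖z‖ := by linarith
    rw [norm_smul, Complex.norm_real, ba_sub, norm_neg]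
    gcongr
    refine (hq z (norm_pos_iff.1 z0) hz y _ hΦ).trans ?_
    rw [(eb[X Z]).norm_eq_one i, div_le_div_iff₀ z0 ρ0]
    nlinarith [mul_le_mul_of_nonneg_left hρ (mul_nonneg q0.le (norm_nonneg y))])
  rw [eZ] at t1 t3 t8
  rw [eH] at t2 t4
  rw [D.bi_pt_id C σ ε h.reg h.unit hG]
  simp only [map_add]
  refine (norm_add_le_of_le (norm_add_le_of_le (norm_add_le_of_le (norm_add_le_of_le
    (norm_add_le_of_le (norm_add_le_of_le (norm_add_le_of_le t1 t2) t3) t4) t5) t6) t7) t8).trans ?_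
  have p1 : 0 ≤ θ * √(D.gperp (D.odd C u) (D.asm z l y)) := by positivity
  have p2 : 0 ≤ θ * ρ * ‖y‖ * ‖D.odd C u (D.asm z l y)‖ := by positivity
  have p3 : 0 ≤ θ / ρ * ‖u (D.asm z l y)‖ := by positivity
  have p4 : 0 ≤ ‖y‖ * (θ / ρ * √(gsq u (D.asm z l y))) := by positivity
  have p5 : 0 ≤ ‖y‖ * (√(D.glight u (D.asm z l y)) / ρ) := by positivity
  have p6 : 0 ≤ ‖y‖ * (1 / ρ * ‖u (D.asm z l y)‖) := by positivity
  have p7 : 0 ≤ ‖y‖ * (ε * ‖u (D.asm z l y)‖) := by positivity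
  calc _ = nH * B ^ 3 * (θ * √(D.gperp (D.odd C u) (D.asm z l y))) +
        b * (θ * ρ * ‖y‖ * ‖D.odd C u (D.asm z l y)‖) +
        (nZ * (S * B ^ 2) + nH * (S * B ^ 2)) * (θ / ρ * ‖u (D.asm z l y)‖) +
        (nZ * B ^ 4 + nH * B ^ 5) * (‖y‖ * (θ / ρ * √(gsq u (D.asm z l y)))) +
        nH * (2 * B ^ 3) * (‖y‖ * (√(D.glight u (D.asm z l y)) / ρ)) +
        (2 * b * B + nZ * (2 * q)) * (‖y‖ * (1 / ρ * ‖u (D.asm z l y)‖)) +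
        4 * (‖y‖ * (ε * ‖u (D.asm z l y)‖)) := by ring
    _ ≤ _ := by
      have : 0 ≤ nZ * B ^ 4 ∧ 0 ≤ nH * B ^ 3 ∧ 0 ≤ nH * B ^ 5 ∧ 0 ≤ nZ * (S * B ^ 2) ∧
        0 ≤ nH * (S * B ^ 2) ∧ 0 ≤ 2 * b * B ∧ 0 ≤ nZ * (2 * q) := by
        refine ⟨?_, ?_, ?_, ?_, ?_, ?_, ?_⟩ <;> positivity
      simp only [mul_add _ (_ + _), mul_add _ (θ * _)]
      gcongr ?_ * _ + ?_ * _ + ?_ * _ + ?_ * _ + ?_ * _ + ?_ * _ + ?_ * _ <;> linarith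

theorem bi_norm_gradient_le : ∃ b : ℝ, 0 < b ∧ ∀ p, ∀ z ∈ D.reg, ‖gradient (D.M p) z‖ ≤ b := by
  obtain ⟨b, b0, hb⟩ := D.exists_M_le
  refine ⟨b, b0, fun p z hz => ?_⟩
  have h := D.bi_inner_gradient p z (gradient (D.M p) z)
  have h1 := Real.sum_mul_le_sqrt_mul_sqrt Finset.univ (fun i => D.α p (z i))
    fun i => D.α p (gradient (D.M p) z i)
  rw [D.fderiv_M p hz, real_inner_self_eq_norm_mul_norm] at h
  have h2 := (div_le_iff₀' (hz p)).2 h1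
  rw [← h] at h2
  rcases (norm_nonneg (gradient (D.M p) z)).eq_or_lt with h0 | h0
  exacts [h0 ▸ b0.le, le_of_mul_le_mul_right (h2.trans (hb p _)) h0]

theorem bN_bound {κ : ℝ} (hκ : 1 ≤ κ) : ∃ K : ℝ, 0 < K ∧ ∀ z : X Z, z ≠ 0 →
    (∀ p, ‖z‖ ≤ κ * D.M p z) → ∀ y a,
      ‖D.Pi C σ.G z (D.bN C σ z y a)‖ ≤ K * (1 / ‖z‖ * ‖a‖ + ‖y‖ ^ 2 * ‖a‖) := by
  obtain ⟨θ₀, B, h1, -, hB, hT⟩ := D.bi_exists_TB hκ
  obtain ⟨S, S0, hS⟩ := D.bi_exists_sH C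
  obtain ⟨b, b0, hb⟩ := exists_norm_wpot 𝔤 σ.G σ.unit
  obtain ⟨g, g0, hg⟩ := D.bi_norm_gradient_le
  obtain ⟨q, q0, hq⟩ := D.norm_fderiv_Pi C σ.G hκ
  obtain ⟨nZ, eZ⟩ : ∃ n : ℝ, (Fintype.card (Fin (Module.finrank ℝ (X Z))) : ℝ) = n := ⟨_, rfl⟩
  obtain ⟨nH, eH⟩ : ∃ n : ℝ, (Fintype.card (Fin (Module.finrank ℝ (X H))) : ℝ) = n := ⟨_, rfl⟩
  have nZ0 : 0 ≤ nZ := eZ ▸ Nat.cast_nonneg _
  have nH0 : 0 ≤ nH := eH ▸ Nat.cast_nonneg _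
  refine ⟨nH * (S * B ^ 2) + b + (∑ p, 5 / 2 * D.m p * κ * g) + (∑ _p : P, 1 / 2 * g) + nZ * q,
    by positivity, fun z z0 hz y a => ?_⟩
  have z1 := norm_pos_iff.2 z0
  have e : ‖D.asm z 0 0‖ = ‖z‖ := by rw [← bi_iZ_eq, LinearIsometry.norm_map]
  have h := hT 0 le_rfl h1.le z 0 0 ⟨by simpa [e] using hz, by simp⟩ (norm_pos_iff.1 (e ▸ z1))
  rw [e] at h
  have kZ : ∀ i a, ‖D.Pi C σ.G z ((D.CZ C).θ (cmap σ.G σ.s (eb[X Z] i)) a)‖ ≤ ‖a‖ := fun i a => by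
    simpa [norm_cmap σ.G σ.unit] using D.bi_Pi_θ_le C σ (D.CZ C) h.reg (cmap σ.G σ.s (eb[X Z] i)) a
  have kH : ∀ i a, ‖D.Pi C σ.G z ((D.CH C).θ (cmap σ.G σ.s (eb[X H] i)) a)‖ ≤ ‖a‖ := fun i a => by
    simpa [norm_cmap σ.G σ.unit] using D.bi_Pi_θ_le C σ (D.CH C) h.reg (cmap σ.G σ.s (eb[X H] i)) a
  have t1 := bi_norm_sum_le' (D.Pi C σ.G z) ((norm_neg _).trans Complex.norm_I)
    (c := S * (B ^ 2 / ‖z‖) * ‖a‖) fun i => (kH i _).trans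
    ((hS (D.Minv z (D.Phi z (eb[X H] i))) a).trans (by
      have h1 := h.etaH' ((eb[X H]).norm_eq_one i)
      rw [zero_div, mul_zero, norm_le_zero_iff, sub_eq_zero] at h1
      gcongr
      exact h1 ▸ h.etaH ((eb[X H]).norm_eq_one i)))
  have t2 : ‖D.Pi C σ.G z (C.θ (wpot 𝔤 σ.G σ.s (liftI 9 D.iH (D.perp z y))) a)‖ ≤
      b * ‖y‖ ^ 2 * ‖a‖ := by
    refine (D.bi_Pi_θ_le C σ C h.reg _ _).trans
      (mul_le_mul_of_nonneg_right ((hb _ 0).1.trans ?_) (norm_nonneg _))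
    rw [LinearIsometry.norm_map]
    gcongr
    exact D.bi_norm_perp_le h.reg y
  have t3 : ‖D.Pi C σ.G z (Complex.I • (D.CZ C).θ (cmap σ.G σ.s (D.bV z y)) a)‖ ≤
      ((∑ p, 5 / 2 * D.m p * κ * g) * (1 / ‖z‖) + (∑ _p : P, 1 / 2 * g) * ‖y‖ ^ 2) * ‖a‖ := by
    rw [map_smul, norm_smul, Complex.norm_I, one_mul]
    refine (D.bi_Pi_θ_le C σ _ h.reg _ _).trans (mul_le_mul_of_nonneg_right ?_ (norm_nonneg _))
    rw [norm_cmap σ.G σ.unit, Finset.sum_mul, Finset.sum_mul, ← Finset.sum_add_distrib]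
    refine norm_sum_le_of_le _ fun p _ => ?_
    have h1 : 1 / D.M p z ≤ κ * (1 / ‖z‖) := by
      rw [mul_one_div, div_le_div_iff₀ (h.reg p) z1, one_mul]; exact hz p
    have h2 := pow_le_pow_left₀ (norm_nonneg _) ((D.bi_norm_pr_le p _).trans (D.bi_norm_perp_le h.reg y)) 2
    have h3 := h.reg p
    rw [norm_smul]
    calc _ ≤ (5 / 2 * D.m p * (κ * (1 / ‖z‖)) + 1 / 2 * ‖y‖ ^ 2) * g := by
          gcongr
          · refine (norm_sub_le _ _).trans ?_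
            rw [Real.norm_of_nonneg (by positivity), Real.norm_of_nonneg (by positivity),
              div_eq_mul_one_div _ (D.M p z)]
            gcongr
          · exact hg p z h.reg
      _ = _ := by ring
  have t4 := bi_norm_sum_le' (D.Pi C σ.G z) Complex.norm_I (c := q / ‖z‖ * ‖a‖) fun i => (kZ i _).trans
    (((fderiv ℝ (D.Pi C σ.G) z (eb[X Z] i)).le_opNorm a).trans (mul_le_mul_of_nonneg_right
      (((fderiv ℝ (D.Pi C σ.G) z).le_opNorm _).trans (by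
        rw [(eb[X Z]).norm_eq_one i, mul_one]; exact hq z z0 hz)) (norm_nonneg a)))
  rw [eZ] at t4
  rw [eH] at t1
  simp only [bN, map_add]
  refine (norm_add_le_of_le (norm_add_le_of_le (norm_add_le_of_le t1 t2) t3) t4).trans ?_
  have : 0 ≤ nH * (S * B ^ 2) ∧ 0 ≤ ∑ p, 5 / 2 * D.m p * κ * g ∧ 0 ≤ ∑ _p : P, 1 / 2 * g ∧
      0 ≤ nZ * q := by refine ⟨?_, ?_, ?_, ?_⟩ <;> positivity
  calc _ = (nH * (S * B ^ 2) + (∑ p, 5 / 2 * D.m p * κ * g) + nZ * q) * (1 / ‖z‖ * ‖a‖) +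
        (b + ∑ _p : P, 1 / 2 * g) * (‖y‖ ^ 2 * ‖a‖) := by ring
    _ ≤ _ := by rw [mul_add]; gcongr ?_ * _ + ?_ * _ <;> linarith

end Levi

end Crest.Agent.R330

end
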