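import Crest.Agent.R330.BI.D

/-! # Row 330, BI/E: the fibrewise estimate -/

set_option autoImplicit false
set_option linter.unusedSectionVars false

noncomputable section

open MeasureTheory Filter Topology
open scoped InnerProductSpace ContDiff Matrix
open Crest.MathPhysics.MatrixQM (GammaNine)

namespace Crest.Agent.R330

variable {E Z L H F : Type}
  [NormedAddCommGroup E] [InnerProductSpace ℝ E] [FiniteDimensional ℝ E]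
  [NormedAddCommGroup Z] [InnerProductSpace ℝ Z] [FiniteDimensional ℝ Z]
  [NormedAddCommGroup L] [InnerProductSpace ℝ L] [FiniteDimensional ℝ L]
  [NormedAddCommGroup H] [InnerProductSpace ℝ H] [FiniteDimensional ℝ H]
  [NormedAddCommGroup F] [InnerProductSpace ℂ F] [FiniteDimensional ℂ F]
  [MeasurableSpace E] [BorelSpace E] [MeasurableSpace Z] [BorelSpace Z]
  [MeasurableSpace L] [BorelSpace L] [MeasurableSpace H] [BorelSpace H]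
  {P : Type} [Fintype P] {𝔤 : Lie E} (D : Levi 𝔤 Z L H P) (C : Cl (Th E) F) (σ : Spn)

namespace Levi

theorem bi_real {e K a₁ a₂ a₃ a₄ a₅ a₆ a₇ d n t : ℝ} (e0 : 0 ≤ e) (ht : 0 < t)
    (h : e ≤ K * (a₁ + a₂ + a₃ + n * a₄ + n * a₅ + n * a₆ + n * a₇ + 1 / t * d + n ^ 2 * d)) :
    e ^ 2 ≤ (1 + t ^ 2 * n ^ 4) * (9 * K ^ 2 *
      (a₁ ^ 2 + a₂ ^ 2 + a₃ ^ 2 + (a₄ ^ 2 + a₅ ^ 2 + a₆ ^ 2 + a₇ ^ 2) / t + 2 * (1 / t ^ 2 * d ^ 2))) := by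
  have h1 := sq_sum_le_card_mul_sum_sq (s := Finset.univ)
    (f := ![a₁, a₂, a₃, n * a₄, n * a₅, n * a₆, n * a₇, 1 / t * d, n ^ 2 * d])
  simp only [Fin.sum_univ_succ, Matrix.cons_val_zero, Matrix.cons_val_succ, Finset.univ_eq_empty,
    Finset.sum_empty, add_zero, ← add_assoc, Finset.card_univ, Fintype.card_fin] at h1
  have p0 : 1 ≤ 1 + t ^ 2 * n ^ 4 := le_add_of_nonneg_right (by positivity)
  have p1 : n ^ 2 ≤ (1 + t ^ 2 * n ^ 4) / t := by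
    rw [le_div_iff₀ ht]; nlinarith [sq_nonneg (t * n ^ 2 - 1)]
  have p2 : n ^ 4 ≤ (1 + t ^ 2 * n ^ 4) * (1 / t ^ 2) := by
    rw [mul_one_div, le_div_iff₀ (by positivity)]; linarith
  generalize 1 + t ^ 2 * n ^ 4 = φ at *
  have q0 := mul_le_mul_of_nonneg_right p0
    (show 0 ≤ a₁ ^ 2 + a₂ ^ 2 + a₃ ^ 2 + 1 / t ^ 2 * d ^ 2 by positivity)
  have q1 := mul_le_mul_of_nonneg_right p1
    (show 0 ≤ a₄ ^ 2 + a₅ ^ 2 + a₆ ^ 2 + a₇ ^ 2 by positivity)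
  have q2 := mul_le_mul_of_nonneg_right p2 (sq_nonneg d)
  refine (pow_le_pow_left₀ e0 h 2).trans ?_
  rw [mul_pow]
  refine (mul_le_mul_of_nonneg_left h1 (sq_nonneg K)).trans ?_
  rw [mul_left_comm φ, mul_comm 9, mul_assoc]
  refine mul_le_mul_of_nonneg_left ?_ (sq_nonneg K)
  have e1 : (1 / t * d) ^ 2 = 1 / t ^ 2 * d ^ 2 := by ring
  have e2 : φ / t * (a₄ ^ 2 + a₅ ^ 2 + a₆ ^ 2 + a₇ ^ 2) =
      φ * ((a₄ ^ 2 + a₅ ^ 2 + a₆ ^ 2 + a₇ ^ 2) / t) := by ring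
  push_cast
  nlinarith

theorem bi_real' {e K K' a₁ a₂ a₃ a₄ a₅ a₆ a₇ d n t : ℝ} (e0 : 0 ≤ e) (ht : 0 < t) (K0 : 0 ≤ K)
    (K0' : 0 ≤ K')
    (h : e ≤ K * (a₁ + a₂ + a₃ + n * a₄ + n * a₅ + n * a₆ + n * a₇) + K' * (1 / t * d + n ^ 2 * d))
    (h1 : 0 ≤ a₁ + a₂ + a₃ + n * a₄ + n * a₅ + n * a₆ + n * a₇) (h2 : 0 ≤ 1 / t * d + n ^ 2 * d) :
    e ^ 2 ≤ (1 + t ^ 2 * n ^ 4) * (9 * (K + K') ^ 2 *
      (a₁ ^ 2 + a₂ ^ 2 + a₃ ^ 2 + (a₄ ^ 2 + a₅ ^ 2 + a₆ ^ 2 + a₇ ^ 2) / t + 2 * (1 / t ^ 2 * d ^ 2))) :=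
  bi_real e0 ht (by nlinarith [mul_nonneg K0 h2, mul_nonneg K0' h1])

/-- the four error densities -/
def biF₁ (u : X E → F) (x : X E) : ℝ :=
  D.gperp (D.odd C u) x + (‖x‖ ^ 2 * ‖D.yc x‖ ^ 2 + ‖x‖) * ‖D.odd C u x‖ ^ 2
def biF₂ (u : X E → F) (x : X E) : ℝ :=
  1 / ‖D.zc x‖ ^ 2 * ‖D.dfc C σ.G u x‖ ^ 2 + 1 / ‖D.zc x‖ ^ 3 * D.glight u x
def bG (θ R ε : ℝ) (u : X E → F) (x : X E) : ℝ :=
  θ ^ 2 * D.biF₁ C u x + 2 * D.biF₂ C σ u x + 2 * θ ^ 2 * (1 / ‖x‖ ^ 3 * gsq u x) +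
    (θ ^ 2 + 2 / R) * ((1 / ‖x‖ ^ 2 + ε) * ‖u x‖ ^ 2)

theorem bi_gsq_nonneg (u : X E → F) (x : X E) : 0 ≤ gsq u x := by unfold gsq; positivity
theorem bi_gperp_nonneg (u : X E → F) (x : X E) : 0 ≤ D.gperp u x := by unfold gperp; positivity
theorem bi_glight_nonneg (u : X E → F) (x : X E) : 0 ≤ D.glight u x := by unfold glight; positivity

theorem bG_nonneg (θ : ℝ) {R ε : ℝ} (hR : 0 < R) (hε : 0 ≤ ε) (u : X E → F) (x : X E) :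
    0 ≤ D.bG C σ θ R ε u x := by
  have := bi_gsq_nonneg u x
  have := D.bi_gperp_nonneg (D.odd C u) x
  have := D.bi_glight_nonneg u x
  unfold bG biF₁ biF₂
  positivity

theorem bi_pt_final {κ : ℝ} (hκ : 1 ≤ κ) : ∃ θ₀ K : ℝ, 0 < θ₀ ∧ θ₀ ≤ 1 / 4 ∧ 0 < K ∧
    ∀ {θ R ε : ℝ} {u : X E → F} {z : X Z} {l : X L} {y : X H}, 0 < θ → θ ≤ θ₀ → 0 < R → 0 ≤ ε →
      ε ≤ 1 → D.Loc C σ.G ∅ κ θ R u → R / 2 ≤ ‖z‖ → (∀ p, ‖z‖ ≤ κ * D.M p z) → D.wt z y ≠ 0 →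
      ‖D.Pi C σ.G z (Qe 𝔤 C σ ε u (D.asm z l y)) - (D.Pi C σ.G z (D.rQ C σ ε u z l y) +
        D.Pi C σ.G z (D.rA C σ u z l y) + D.Pi C σ.G z (D.bN C σ z y
          (((Real.exp (-D.hq z y) / D.nu z : ℝ) : ℂ) • D.red C σ.G u (z, l))))‖ ^ 2 ≤
        (1 + ‖z‖ ^ 2 * ‖y‖ ^ 4) * (K * D.bG C σ θ R ε u (D.asm z l y)) := by
  obtain ⟨θ₀, B, h1, h2, hB, hT⟩ := D.bi_exists_TB hκ
  obtain ⟨K, K0, hK⟩ := D.bi_pt_bound C σ hκ hB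
  obtain ⟨K', K0', hK'⟩ := D.bN_bound C σ hκ
  refine ⟨θ₀, 9 * (K + K') ^ 2, h1, h2, by positivity,
    fun {θ R ε u z l y} θ0 θ1 R0 ε0 ε1 hu hR hz hw => ?_⟩
  have z0 : 0 < ‖z‖ := by linarith
  have hΦ := D.bi_Phi_lt hw
  have zρ : ‖z‖ ≤ ‖D.asm z l y‖ := by simpa using D.norm_zc_le (D.asm z l y)
  have ρ0 := z0.trans_le zρ
  obtain ⟨k1, k2, -⟩ := hu.2 (D.asm z l y) (by simpa using hΦ)
  have k3 := hK' z (norm_pos_iff.1 z0) hz y (D.dfc C σ.G u (D.asm z l y))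
  have e : D.Pi C σ.G z (Qe 𝔤 C σ ε u (D.asm z l y)) - (D.Pi C σ.G z (D.rQ C σ ε u z l y) +
      D.Pi C σ.G z (D.rA C σ u z l y) + D.Pi C σ.G z (D.bN C σ z y
        (((Real.exp (-D.hq z y) / D.nu z : ℝ) : ℂ) • D.red C σ.G u (z, l)))) =
      D.Pi C σ.G z (Qe 𝔤 C σ ε u (D.asm z l y) - D.rQ C σ ε u z l y - D.rA C σ u z l y -
        D.bN C σ z y (u (D.asm z l y))) +
      D.Pi C σ.G z (D.bN C σ z y (D.dfc C σ.G u (D.asm z l y))) := by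
    simp only [dfc, zc_asm, lc_asm, yc_asm, bN, map_sub, map_add, smul_sub, Finset.sum_sub_distrib]
    abel
  have k4 : (‖D.asm z l y‖ ≤ 2 * ‖z‖ ∨ gsq u (D.asm z l y) = 0) ∧
      ‖D.Pi C σ.G z (Qe 𝔤 C σ ε u (D.asm z l y) - D.rQ C σ ε u z l y - D.rA C σ u z l y -
        D.bN C σ z y (u (D.asm z l y)))‖ ≤
      K * (θ * √(D.gperp (D.odd C u) (D.asm z l y)) +
        θ * ‖D.asm z l y‖ * ‖y‖ * ‖D.odd C u (D.asm z l y)‖ +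
        θ / ‖D.asm z l y‖ * ‖u (D.asm z l y)‖ + ‖y‖ * (θ / ‖D.asm z l y‖ * √(gsq u (D.asm z l y))) +
        ‖y‖ * (√(D.glight u (D.asm z l y)) / ‖D.asm z l y‖) +
        ‖y‖ * (1 / ‖D.asm z l y‖ * ‖u (D.asm z l y)‖) + ‖y‖ * (ε * ‖u (D.asm z l y)‖)) := by
    by_cases hs : D.asm z l y ∈ tsupport u
    · have h3 := D.tube_norm_zc (k1 hs).1
      rw [zc_asm] at h3
      have h4 : ‖D.asm z l y‖ ≤ 2 * ‖z‖ := by nlinarith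
      exact ⟨.inl h4, hK (hT θ θ0.le θ1 z l y (k1 hs).1 (norm_pos_iff.1 ρ0)) ε0 hΦ
        (hu.1.1.differentiable (by simp) _) k2 hz h4⟩
    · have h3 := image_eq_zero_of_notMem_tsupport hs
      have h4 := fderiv_of_notMem_tsupport ℝ hs
      refine ⟨.inr (by simp [gsq, h4]), le_trans (le_of_eq ?_) (by positivity)⟩
      simp [Qe, Qd, dirac, rQ, rA, bN, h3, h4]
  rw [e]
  refine (bi_real' (norm_nonneg _) z0 K0.le K0'.le (norm_add_le_of_le k4.2 k3) (by positivity)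
    (by positivity)).trans ?_
  gcongr
  have g1 := bi_gsq_nonneg u (D.asm z l y)
  have g2 := D.bi_gperp_nonneg (D.odd C u) (D.asm z l y)
  have g3 := D.bi_glight_nonneg u (D.asm z l y)
  simp only [bG, biF₁, biF₂, zc_asm, yc_asm, mul_pow, div_pow, Real.sq_sqrt g1, Real.sq_sqrt g2,
    Real.sq_sqrt g3, add_div, one_pow]
  have i1 : 1 / ‖z‖ ≤ 2 / R := by rw [div_le_div_iff₀ z0 R0]; linarith
  have c4 : θ ^ 2 / ‖D.asm z l y‖ ^ 2 * gsq u (D.asm z l y) / ‖z‖ ≤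
      2 * θ ^ 2 * (1 / ‖D.asm z l y‖ ^ 3 * gsq u (D.asm z l y)) := by
    rcases k4.1 with h | h
    · calc _ ≤ θ ^ 2 / ‖D.asm z l y‖ ^ 2 * gsq u (D.asm z l y) / (‖D.asm z l y‖ / 2) := by
            gcongr; linarith
        _ = _ := by field_simp
    · simp [h]
  have c5 : D.glight u (D.asm z l y) / ‖D.asm z l y‖ ^ 2 / ‖z‖ ≤
      1 / ‖z‖ ^ 3 * D.glight u (D.asm z l y) := by
    calc _ ≤ D.glight u (D.asm z l y) / ‖z‖ ^ 2 / ‖z‖ := by gcongr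
      _ = _ := by field_simp
  have c6 : 1 / ‖D.asm z l y‖ ^ 2 * ‖u (D.asm z l y)‖ ^ 2 / ‖z‖ ≤
      2 / R * (1 / ‖D.asm z l y‖ ^ 2 * ‖u (D.asm z l y)‖ ^ 2) := by
    rw [div_eq_mul_one_div _ ‖z‖, mul_comm]; gcongr
  have c7 : ε ^ 2 * ‖u (D.asm z l y)‖ ^ 2 / ‖z‖ ≤ 2 / R * (ε * ‖u (D.asm z l y)‖ ^ 2) := by
    rw [div_eq_mul_one_div _ ‖z‖, mul_comm]; gcongr; nlinarith
  have c8 : 0 ≤ θ ^ 2 * (‖D.asm z l y‖ * ‖D.odd C u (D.asm z l y)‖ ^ 2) := by positivity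
  have c9 : 0 ≤ θ ^ 2 * (ε * ‖u (D.asm z l y)‖ ^ 2) := by positivity
  have c10 : 0 ≤ 1 / ‖z‖ ^ 3 * D.glight u (D.asm z l y) := by positivity
  have c11 : θ ^ 2 / ‖D.asm z l y‖ ^ 2 = θ ^ 2 * (1 / ‖D.asm z l y‖ ^ 2) := by ring
  rw [c11] at c4 ⊢
  linarith

theorem bi_Qlight_zero (ε : ℝ) {f : X Z × X L → F} {z : X Z} {l : X L} (h : (z, l) ∉ tsupport f) :
    D.Qlight C σ ε f (z, l) = 0 := by
  have h0 := notMem_tsupport_iff_eventuallyEq.1 h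
  have h1 : (fun z' => f (z', l)) =ᶠ[𝓝 z] fun _ => 0 :=
    (ContinuousAt.tendsto (f := fun z' => (z', l)) (by fun_prop)).eventually h0
  have h2 : (fun l' => f (z, l')) =ᶠ[𝓝 l] fun _ => 0 :=
    (ContinuousAt.tendsto (f := fun l' => (z, l')) (by fun_prop)).eventually h0
  simp [Qlight, Qe, Qd, dirac, h1.fderiv_eq, h2.fderiv_eq, image_eq_zero_of_notMem_tsupport h]

theorem bi_fibre_bound {κ η : ℝ} (hκ : 1 ≤ κ) (hη : 0 < η) : ∃ θ₀ K : ℝ, 0 < θ₀ ∧ θ₀ ≤ 1 / 4 ∧ 0 < K ∧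
    ∀ {θ R ε : ℝ} {u : X E → F}, 0 < θ → θ ≤ θ₀ → 2 ≤ R → 0 ≤ ε → ε ≤ 1 →
      D.Loc C σ.G ∅ κ θ R u → ∀ z l,
      (Integrable fun y => D.wt z y * ‖Qe 𝔤 C σ ε u (D.asm z l y)‖ ^ 2) →
      (Integrable fun y => D.wt z y * D.bG C σ θ R ε u (D.asm z l y)) →
      ‖D.Qlight C σ ε (D.red C σ.G u) (z, l)‖ ^ 2 ≤
        (1 + η) * (∫ y, D.wt z y * ‖Qe 𝔤 C σ ε u (D.asm z l y)‖ ^ 2) +
          K * ∫ y, D.wt z y * D.bG C σ θ R ε u (D.asm z l y) := by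
  obtain ⟨θ₀, K, h1, h2, K0, hK⟩ := D.bi_pt_final C σ hκ
  obtain ⟨A, A0, hA⟩ := D.moment_le hκ 2
  refine ⟨θ₀, (1 + 1 / η) * ((1 + A) * K), h1, h2, by positivity,
    fun {θ R ε u} θ0 θ1 R2 ε0 ε1 hu z l i1 i2 => ?_⟩
  have R0 : 0 < R := by linarith
  have θ2 : θ ≤ 1 / 2 := by linarith
  have hf := D.eff_red C σ (fun _ h => h.elim) hκ θ0 θ2 R0 hu
  by_cases hs : (z, l) ∈ tsupport (D.red C σ.G u)
  swap
  · rw [D.bi_Qlight_zero C σ ε hs, norm_zero, zero_pow two_ne_zero]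
    exact add_nonneg (mul_nonneg (by positivity) (integral_nonneg fun y =>
      mul_nonneg (D.wt_nonneg z y) (sq_nonneg _))) (mul_nonneg (by positivity)
      (integral_nonneg fun y => mul_nonneg (D.wt_nonneg z y) (D.bG_nonneg C σ θ R0 ε0 u _)))
  obtain ⟨hR, hz, -⟩ := hf.2.2.2.2 _ hs
  have z1 : 1 ≤ ‖z‖ := by linarith
  have hr := D.bi_reg_of_le (one_pos.trans_le z1) hz
  have cQ := hu.1.dirac C (cmap σ.G σ.s) (contDiff_wd 𝔤 σ ε (f := fun _ => 0) contDiff_const)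
  have a0 : D.BiAv z (fun y => D.Pi C σ.G z (Qe 𝔤 C σ ε u (D.asm z l y))) _ :=
    ⟨D.integrable_bw cQ.2 hr l ((D.Pi C σ.G z).continuous.comp
      (cQ.1.continuous.comp (D.bi_cont_asm z l).continuous)) fun y hy =>
      (congrArg _ (image_eq_zero_of_notMem_tsupport hy)).trans (map_zero _), rfl⟩
  have a1 := (a0.sub (((D.av_rQ C σ hκ θ0 θ2 R0 hu hr l ε).add (D.av_rA C σ hu.1 hr l)).add
    (D.av_bN C σ hr (hf.2.1 (z, l))))).2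
  have m0 := D.integrable_moment hr two_pos 0
  have m4 := D.integrable_moment hr two_pos 4
  have b0 := D.bT_sq_le hr (r := fun y => D.Pi C σ.G z (Qe 𝔤 C σ ε u (D.asm z l y)))
    (φ := fun _ => 1) one_pos (by simpa using m0) (by simp [nu_sq]) i1 (fun _ => zero_le_one)
    (fun _ => sq_nonneg _) fun y _ => by
      rw [one_mul]; exact pow_le_pow_left₀ (norm_nonneg _) (D.bi_norm_Pi_le C σ hr _) 2
  have b1 := D.bT_sq_le hr (φ := fun y => 1 + ‖z‖ ^ 2 * ‖y‖ ^ 4) (A := 1 + A) (by positivity)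
    ((m0.add (m4.const_mul (‖z‖ ^ 2))).congr (Eventually.of_forall fun y => by simp; ring)) (by
      have h3 := hA z z1 hz
      rw [le_div_iff₀ (by positivity)] at h3
      simp only [mul_add, mul_one, mul_left_comm _ (‖z‖ ^ 2)]
      rw [integral_add (by simpa using m0) (m4.const_mul _), integral_const_mul, ← nu_sq]
      linarith)
    ((i2.const_mul K).congr (Eventually.of_forall fun y => mul_left_comm _ _ _))
    (fun _ => by positivity) (fun y => mul_nonneg K0.le (D.bG_nonneg C σ θ R0 ε0 u _))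
    fun y hy => hK θ0 θ1 R0 ε0 ε1 hu hR hz hy
  simp only [mul_left_comm _ K, integral_const_mul] at b1
  rw [a1, add_zero, add_zero] at b1
  generalize D.bT z (fun y => D.Pi C σ.G z (Qe 𝔤 C σ ε u (D.asm z l y))) = a at b0 b1
  generalize D.Qlight C σ ε (D.red C σ.G u) (z, l) = b at b1 ⊢
  have h3 : ‖b‖ ≤ ‖a‖ + ‖a - b‖ := by simpa using norm_sub_le a (a - b)
  have h4 : (‖a‖ + ‖a - b‖) ^ 2 ≤ (1 + η) * ‖a‖ ^ 2 + (1 + 1 / η) * ‖a - b‖ ^ 2 := by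
    have : 0 ≤ (η * ‖a‖ - ‖a - b‖) ^ 2 / η := by positivity
    have e : (η * ‖a‖ - ‖a - b‖) ^ 2 / η = η * ‖a‖ ^ 2 - 2 * ‖a‖ * ‖a - b‖ + 1 / η * ‖a - b‖ ^ 2 := by
      field_simp; ring
    linarith
  refine ((pow_le_pow_left₀ (norm_nonneg _) h3 2).trans h4).trans ?_
  rw [mul_assoc (1 + 1 / η), mul_assoc (1 + A), mul_left_comm (1 + A)]
  gcongr
  linarith

end Levi

end Crest.Agent.R330

end
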