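import Crest.Agent.R330.BI.E

/-! # Row 330, BI/F: integration -/

set_option autoImplicit false
set_option linter.unusedSectionVars false

noncomputable section

open MeasureTheory Filter Topology
open scoped InnerProductSpace ContDiff Matrix
open Crest.MathPhysics.MatrixQM (GammaNine)

namespace Crest.Agent.R330

variable {E Z L H F : Type}
  [NormedAddCommGroup E] [InnerProductSpace ℝ E] [FiniteDimensional ℝ E]
  [NormedAddCommGroup Z] [InnerProductSpace ℝ Z] [FiniteDimensional ℝ Z]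
  [NormedAddCommGroup L] [InnerProductSpace ℝ L] [FiniteDimensional ℝ L]
  [NormedAddCommGroup H] [InnerProductSpace ℝ H] [FiniteDimensional ℝ H]
  [NormedAddCommGroup F] [InnerProductSpace ℂ F] [FiniteDimensional ℂ F]
  [MeasurableSpace E] [BorelSpace E] [MeasurableSpace Z] [BorelSpace Z]
  [MeasurableSpace L] [BorelSpace L] [MeasurableSpace H] [BorelSpace H]
  {P : Type} [Fintype P] {𝔤 : Lie E} (D : Levi 𝔤 Z L H P) (C : Cl (Th E) F) (σ : Spn)

namespace Levi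

theorem intertwine' {κ η : ℝ} (hκ : 1 ≤ κ) (hη : 0 < η) (B₁ : ℝ → ℝ → ℝ) {B : ℝ} (hB : 0 < B) :
    ∃ θ₀ δ : ℝ, 0 < θ₀ ∧ 0 < δ ∧ ∀ θ, 0 < θ → θ ≤ θ₀ → ∃ R₀ : ℝ, ∀ R, R₀ ≤ R →
      ∀ ε, 0 ≤ ε → ε ≤ 1 → ∀ u, D.Loc C σ.G ∅ κ θ R u → D.E1 C σ ε B₁ u →
        D.FineIneq C σ ε B u → D.DefIneq C σ ε δ u →
        ∫ q, ‖D.Qlight C σ ε (D.red C σ.G u) q‖ ^ 2 ≤
          (1 + η) * D.PI (fun x => ‖Qe 𝔤 C σ ε u x‖ ^ 2) +
            η * D.PI fun x => (1 / ‖x‖ ^ 2 + ε) * ‖u x‖ ^ 2 := by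
  obtain ⟨θ₀, K, t0, t1, K0, hK⟩ := D.bi_fibre_bound C σ hκ (half_pos hη)
  obtain ⟨Bc, Bc0, hBc⟩ := D.grad_crude C σ hκ B₁
  obtain ⟨s, s0, hs⟩ : ∃ s : ℝ, 0 < s ∧ K * s = η / 2 := ⟨η / 2 / K, by positivity, by field_simp⟩
  refine ⟨min θ₀ (s / (3 * (B + 2 * Bc + 1))), s / 6, by positivity, by positivity,
    fun θ θ0 θ1 => ⟨max 2 (6 / s), fun R hR ε ε0 ε1 u hu h1 h2 h3 => ?_⟩⟩
  have θ2 := θ1.trans (min_le_left _ _)
  have θ3 := θ1.trans (min_le_right _ _)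
  have R2 := (le_max_left _ _).trans hR
  have R3 := (le_max_right _ _).trans hR
  have R0 : 0 < R := by linarith
  have θ4 : θ ≤ 1 / 2 := by linarith
  have h4 := hBc θ R θ0 θ4 (by linarith) ε ε0 ε1 u hu h1
  have cu := hu.1.1.continuous
  have cd := hu.1.1.continuous_fderiv (by simp)
  have du := hu.1.1.differentiable (by simp)
  have cz := D.zc.continuous_of_finiteDimensional
  have cy := D.yc.continuous_of_finiteDimensional
  have u0 : ∀ x, x ∉ tsupport u → u x = 0 := fun x => image_eq_zero_of_notMem_tsupport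
  have d0 : ∀ x, x ∉ tsupport u → fderiv ℝ u x = 0 := fun x => fderiv_of_notMem_tsupport ℝ
  have cn : ∀ n : ℕ, ContinuousOn (fun x : X E => 1 / ‖x‖ ^ n) {x | D.zc x ∈ D.reg ∧ D.zc x ≠ 0} :=
    fun n => continuousOn_const.div (by fun_prop) fun x hx => pow_ne_zero _ (norm_ne_zero_iff.2
      fun h => hx.2 (by rw [h, map_zero]))
  have cQ := hu.1.dirac C (cmap σ.G σ.s) (contDiff_wd 𝔤 σ ε (f := fun _ => 0) contDiff_const)
  have iQ : Integrable fun x => D.wtX x * ‖Qe 𝔤 C σ ε u x‖ ^ 2 :=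
    hu.bi_integrable θ4 R0 (cQ.1.continuous.norm.pow 2).continuousOn fun x hx => by
      simp [Qe, Qd, dirac, u0 x hx, d0 x hx]
  have i1 : Integrable fun x => D.wtX x * D.biF₁ C u x := by
    refine hu.bi_integrable θ4 R0 ?_ fun x hx => by
      simp [biF₁, gperp, D.bi_fderiv_odd C (du x), odd, u0 x hx, d0 x hx]
    have cp : ∀ e, ContinuousOn (fun x => fderiv ℝ u x (liftI 9 D.iH (D.perp (D.zc x) e)))
        {x | D.zc x ∈ D.reg ∧ D.zc x ≠ 0} := fun e =>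
      cd.continuousOn.clm_apply ((liftI 9 D.iH).continuous.comp_continuousOn
        (D.contDiffOn_perp.continuousOn.comp (f := fun x => (D.zc x, e)) (by fun_prop)
          fun x hx => ⟨hx.1, trivial⟩))
    unfold biF₁ gperp
    simp only [D.bi_fderiv_odd C (du _), odd]
    refine (continuousOn_finsetSum _ fun i _ => ?_).add (by fun_prop)
    have := cp (stdOrthonormalBasis ℝ (X H) i)
    fun_prop
  have i2 : Integrable fun x => D.wtX x * D.biF₂ C σ u x := by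
    simp only [biF₂, mul_add]
    refine (D.pyth C σ hκ θ0 θ4 R0 hu (wl := fun q => 1 / ‖q.1‖ ^ 2) (continuousOn_const.div
      (by fun_prop) fun q hq => pow_ne_zero _ (norm_ne_zero_iff.2 hq))).1.add
      (hu.bi_integrable θ4 R0 ((continuousOn_const.div (by fun_prop) fun x hx =>
        pow_ne_zero _ (norm_ne_zero_iff.2 hx.2)).mul ?_) fun x hx => by simp [glight, d0 x hx])
    unfold glight
    fun_prop
  have i3 : Integrable fun x => D.wtX x * (1 / ‖x‖ ^ 3 * gsq u x) :=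
    hu.bi_integrable θ4 R0 ((cn 3).mul (by unfold gsq; fun_prop)) fun x hx => by simp [gsq, d0 x hx]
  have i4 : Integrable fun x => D.wtX x * ((1 / ‖x‖ ^ 2 + ε) * ‖u x‖ ^ 2) :=
    hu.bi_integrable θ4 R0 (((cn 2).add continuousOn_const).mul (by fun_prop)) fun x hx => by
      simp [u0 x hx]
  have e : (fun x => D.wtX x * D.bG C σ θ R ε u x) = fun x => θ ^ 2 * (D.wtX x * D.biF₁ C u x) +
      2 * (D.wtX x * D.biF₂ C σ u x) + 2 * θ ^ 2 * (D.wtX x * (1 / ‖x‖ ^ 3 * gsq u x)) +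
      (θ ^ 2 + 2 / R) * (D.wtX x * ((1 / ‖x‖ ^ 2 + ε) * ‖u x‖ ^ 2)) := funext fun x => by
    rw [bG]; ring
  have j1 := (i1.const_mul (θ ^ 2)).add (i2.const_mul 2)
  have j2 := j1.add (i3.const_mul (2 * θ ^ 2))
  have iG : Integrable fun x => D.wtX x * D.bG C σ θ R ε u x :=
    e ▸ j2.add (i4.const_mul (θ ^ 2 + 2 / R))
  have eG : D.PI (D.bG C σ θ R ε u) = θ ^ 2 * D.PI (D.biF₁ C u) + 2 * D.PI (D.biF₂ C σ u) +
      2 * θ ^ 2 * D.PI (fun x => 1 / ‖x‖ ^ 3 * gsq u x) +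
      (θ ^ 2 + 2 / R) * D.PI fun x => (1 / ‖x‖ ^ 2 + ε) * ‖u x‖ ^ 2 := by
    simp only [PI]
    rw [e]
    refine (integral_add j2 (i4.const_mul _)).trans (congrArg₂ _ ((integral_add j1
      (i3.const_mul _)).trans (congrArg₂ _ ((integral_add (i1.const_mul _) (i2.const_mul _)).trans
      (congrArg₂ _ ?_ ?_)) ?_)) ?_) <;> exact integral_const_mul _ _
  have w0 : ∀ x, 0 ≤ D.wtX x := fun x => D.wt_nonneg _ _
  have m1 : D.PI (fun x => 1 / ‖x‖ ^ 2 * ‖u x‖ ^ 2) ≤ D.PI fun x => (1 / ‖x‖ ^ 2 + ε) * ‖u x‖ ^ 2 :=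
    integral_mono_of_nonneg (Eventually.of_forall fun x => mul_nonneg (w0 x) (by positivity)) i4
      (Eventually.of_forall fun x => mul_le_mul_of_nonneg_left
        (mul_le_mul_of_nonneg_right (by linarith) (sq_nonneg _)) (w0 x))
  have p1 : 0 ≤ D.PI fun x => ‖Qe 𝔤 C σ ε u x‖ ^ 2 :=
    integral_nonneg fun x => mul_nonneg (w0 x) (sq_nonneg _)
  have p2 : 0 ≤ D.PI fun x => (1 / ‖x‖ ^ 2 + ε) * ‖u x‖ ^ 2 :=
    integral_nonneg fun x => mul_nonneg (w0 x) (by positivity)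
  have k := D.bi_integral_le_PI (g := fun q => ‖D.Qlight C σ ε (D.red C σ.G u) q‖ ^ 2) (1 + η / 2) K
    (fun _ => sq_nonneg _) iQ iG (hK θ0 θ2 R2 ε0 ε1 hu)
  change D.PI (D.biF₁ C u) ≤ _ at h2
  change D.PI (D.biF₂ C σ u) ≤ _ at h3
  rw [eG] at k
  generalize D.PI (D.biF₁ C u) = a₁ at *
  generalize D.PI (D.biF₂ C σ u) = a₂ at *
  generalize D.PI (fun x => 1 / ‖x‖ ^ 3 * gsq u x) = a₃ at *
  generalize D.PI (fun x => (1 / ‖x‖ ^ 2 + ε) * ‖u x‖ ^ 2) = N at *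
  generalize D.PI (fun x => 1 / ‖x‖ ^ 2 * ‖u x‖ ^ 2) = N' at *
  generalize D.PI (fun x => ‖Qe 𝔤 C σ ε u x‖ ^ 2) = Q at *
  have q1 : θ ^ 2 * (B + 2 * Bc + 1) ≤ s / 3 := by
    rw [le_div_iff₀ (by positivity)] at θ3
    nlinarith [mul_le_mul_of_nonneg_right (show θ ^ 2 ≤ θ by nlinarith)
      (show 0 ≤ B + 2 * Bc + 1 by positivity)]
  have q2 : 2 / R ≤ s / 3 := by
    rw [div_le_iff₀ s0] at R3
    rw [div_le_div_iff₀ R0 three_pos]; linarith
  have q3 : θ ^ 2 * a₁ + 2 * a₂ + 2 * θ ^ 2 * a₃ + (θ ^ 2 + 2 / R) * N ≤ s * (Q + N) := by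
    have r1 := mul_le_mul_of_nonneg_left h2 (sq_nonneg θ)
    have r2 := h3.trans (mul_le_mul_of_nonneg_left (add_le_add_right m1 Q) (by positivity))
    have r3 := mul_le_mul_of_nonneg_left
      (h4.trans (mul_le_mul_of_nonneg_left (add_le_add_right m1 Q) Bc0.le)) (sq_nonneg θ)
    have r4 := mul_le_mul_of_nonneg_right q1 (add_nonneg p1 p2)
    have r5 := mul_le_mul_of_nonneg_right q2 p2
    have r6 := mul_nonneg (sq_nonneg θ) p1
    have r7 := mul_nonneg s0.le p1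
    linarith
  have q4 := mul_le_mul_of_nonneg_left q3 K0.le
  rw [← mul_assoc, hs] at q4
  have := mul_nonneg hη.le p2
  linarith

end Levi

end Crest.Agent.R330

end
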